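import Vale.Agent.P004H.H742.Glue

/-!
# P004H (H204): the curves `11a2`, `11a3`: number of affine points modulo `p`
-/

namespace Vale.Agent.P004H.H204

/-- the number of affine points of `y² + y = x³ - x² - 7820 x - 263580` over `ℤ / p` -/
noncomputable def cnt2 (p : ℕ) : ℕ :=
  Nat.card {q : ZMod p × ZMod p // q.2 ^ 2 + q.2 = q.1 ^ 3 - q.1 ^ 2 - 7820 * q.1 - 263580}

/-- the number of affine points of `y² + y = x³ - x²` over `ℤ / p` -/
noncomputable def cnt3 (p : ℕ) : ℕ :=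
  Nat.card {q : ZMod p × ZMod p // q.2 ^ 2 + q.2 = q.1 ^ 3 - q.1 ^ 2}

end Vale.Agent.P004H.H204
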