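import Vale.Agent.P004H.H204.Ev
import Vale.Agent.P004H.H792.F11

/-!
# P004H (H204): the Eisenstein series `(11 E2(11 z) - E2(z)) / 2`
-/

open Complex
open UpperHalfPlane hiding I
open scoped Real MatrixGroups ModularForm ArithmeticFunction.sigma

namespace Vale.Agent.P004H.H204

open H792 (im11 im_div11 den_ne' im_S im_ne)

/-- `E2` as a function on `ℂ` -/
noncomputable def E2c (z : ℂ) : ℂ := EisensteinSeries.E2 (ofComplex z)

theorem E2c_eq {z : ℂ} (hz : 0 < z.im) : E2c z = EisensteinSeries.E2 ⟨z, hz⟩ := by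
  unfold E2c
  rw [ofComplex_apply_of_im_pos hz]

theorem E2c_mob {a b c d : ℤ} (h : a * d - b * c = 1) {z : ℂ} (hz : 0 < z.im) :
    E2c ((a * z + b) / (c * z + d)) =
      (c * z + d) ^ 2 * E2c z - 6 * I / π * c * (c * z + d) := by
  obtain ⟨g, g00, g01, g10, g11⟩ : ∃ g : SL(2, ℤ), g 0 0 = a ∧ g 0 1 = b ∧ g 1 0 = c ∧
      g 1 1 = d :=
    ⟨⟨!![a, b; c, d], by rw [Matrix.det_fin_two_of]; exact h⟩, by simp, by simp, by simp,
      by simp⟩
  have h0 := den_ne' h hz
  have h1 := congrFun (EisensteinSeries.E2_slash_action g) ⟨z, hz⟩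
  rw [ModularForm.SL_slash_apply] at h1
  have h2 : ((g • (⟨z, hz⟩ : ℍ) : ℍ) : ℂ) = (a * z + b) / (c * z + d) := by
    rw [UpperHalfPlane.specialLinearGroup_apply]
    simp [g00, g01, g10, g11]
  have h3 : UpperHalfPlane.denom g (⟨z, hz⟩ : ℍ) = c * z + d := by
    simp [UpperHalfPlane.denom, g10, g11]
  have h4 : E2c ((a * z + b) / (c * z + d)) = EisensteinSeries.E2 (g • (⟨z, hz⟩ : ℍ)) := by
    unfold E2c
    rw [← h2, ofComplex_apply]
  rw [h4, E2c_eq hz]
  simp only [Pi.sub_apply, Pi.smul_apply, smul_eq_mul, EisensteinSeries.D2, h3,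
    riemannZeta_two] at h1
  rw [g10] at h1
  have hpi : (π : ℂ) ≠ 0 := by exact_mod_cast Real.pi_ne_zero
  rw [zpow_neg, ← div_eq_mul_inv, div_eq_iff (zpow_ne_zero _ h0)] at h1
  rw [h1, zpow_ofNat]
  field_simp

/-- `5 + 12 ∑ (σ(n) - 11 σ(n/11)) q^n` -/
noncomputable def e5 (z : ℂ) : ℂ := (11 * E2c (11 * z) - E2c z) / 2

theorem e5_mob {a b c d : ℤ} (h : a * d - b * (11 * c) = 1) {z : ℂ} (hz : 0 < z.im) :
    e5 ((a * z + b) / ((11 * c : ℤ) * z + d)) = ((11 * c : ℤ) * z + d) ^ 2 * e5 z := by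
  have h1 := E2c_mob h hz
  have h2 := E2c_mob (a := a) (b := 11 * b) (c := c) (d := d) (by linarith) (im11 hz)
  have h3 := den_ne' h hz
  have h4 := den_ne' (a := a) (b := 11 * b) (c := c) (d := d) (by linarith) (im11 hz)
  unfold e5
  rw [show 11 * ((a * z + b) / (((11 * c : ℤ) : ℂ) * z + d)) =
    (a * (11 * z) + ((11 * b : ℤ) : ℂ)) / (c * (11 * z) + d) by
      rw [mul_div_assoc', div_eq_div_iff h3 h4]
      push_cast
      ring]
  rw [h1, h2]
  push_cast
  ring

theorem e5_W {z : ℂ} (hz : 0 < z.im) : e5 (-1 / (11 * z)) = -11 * z ^ 2 * e5 z := by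
  have h0 := im_ne hz
  have h1 := E2c_mob (a := 0) (b := -1) (c := 1) (d := 0) (by norm_num) hz
  have h2 := E2c_mob (a := 0) (b := -1) (c := 1) (d := 0) (by norm_num) (im11 hz)
  simp only [Int.cast_zero, Int.cast_neg, Int.cast_one, zero_mul, zero_add, one_mul, add_zero,
    mul_one] at h1 h2
  unfold e5
  rw [show 11 * (-1 / (11 * z)) = -1 / z by field_simp, h1, h2]
  ring

/-- the coefficients -/
def sg (n : ℕ) : ℤ := (σ 1 n : ℤ) - 11 * (if 11 ∣ n then (σ 1 (n / 11) : ℤ) else 0)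

/-- `∑ (σ(n) - 11 σ(n/11)) q^n` -/
noncomputable def Sz : PowerSeries ℤ := PowerSeries.mk sg

theorem qq11 (z : ℂ) : qq (11 * z) = qq z ^ 11 := by
  unfold qq
  rw [← Complex.exp_nat_mul]
  congr 1
  push_cast
  ring

theorem hasSum_E2 {z : ℂ} (hz : 0 < z.im) :
    HasSum (fun n : ℕ => (if n = 0 then 1 else -24 * (σ 1 n : ℂ)) * qq z ^ n) (E2c z) := by
  rw [E2c_eq hz]
  exact EisensteinSeries.hasSum_qExpansion_E2 (z := ⟨z, hz⟩)

/-- the coefficients of `E5` -/
noncomputable def cE (n : ℕ) : ℤ := if n = 0 then 5 else 12 * sg n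

theorem hasSum_e5 {z : ℂ} (hz : 0 < z.im) :
    HasSum (fun n : ℕ => (cE n : ℂ) * qq z ^ n) (e5 z) := by
  have h1 := hasSum_E2 hz
  have h2 := hasSum_E2 (im11 hz)
  rw [qq11] at h2
  have h3 : HasSum (fun n : ℕ => (if 11 ∣ n then (if n = 0 then 1 else
      -24 * (σ 1 (n / 11) : ℂ)) else 0) * qq z ^ n) (E2c (11 * z)) := by
    have hinj : Function.Injective (fun m : ℕ => 11 * m) := fun x y hxy => by
      simp only at hxy; omega
    rw [← hinj.hasSum_iff]
    · refine h2.congr_fun ?_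
      intro n
      simp only [Function.comp_apply]
      rw [if_pos (Dvd.intro n rfl), ← pow_mul, Nat.mul_div_cancel_left n (by norm_num)]
      by_cases hn : n = 0
      · simp [hn]
      · rw [if_neg hn, if_neg (by omega)]
    · intro n hn
      rw [if_neg, zero_mul]
      rintro ⟨m, rfl⟩
      exact hn ⟨m, rfl⟩
  have h4 := ((h3.mul_left 11).sub h1).div_const 2
  refine h4.congr_fun ?_
  intro n
  unfold cE sg
  by_cases hn : n = 0
  · subst hn
    norm_num
  · rw [if_neg hn, if_neg hn]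
    by_cases h11 : 11 ∣ n
    · rw [if_pos h11, if_pos h11, if_neg hn]
      push_cast
      ring
    · rw [if_neg h11, if_neg h11, if_neg hn]
      push_cast
      ring

end Vale.Agent.P004H.H204
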