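import Vale.Agent.P004H.H204.Formal

/-!
# P004H (H204): evaluation of power series convergent on the unit disc
-/

open PowerSeries Filter Topology

namespace Vale.Agent.P004H.H204

/-- convergent on the open unit disc -/
def Conv (p : ℂ⟦X⟧) : Prop :=
  ∀ r : ℝ, 0 ≤ r → r < 1 → Summable (fun n => ‖coeff n p‖ * r ^ n)

/-- the sum -/
noncomputable def ev (p : ℂ⟦X⟧) (q : ℂ) : ℂ := ∑' n, coeff n p * q ^ n

theorem Conv.norm {p : ℂ⟦X⟧} (hp : Conv p) {q : ℂ} (hq : ‖q‖ < 1) :
    Summable (fun n => ‖coeff n p * q ^ n‖) := by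
  have h := hp ‖q‖ (norm_nonneg _) hq
  simpa [norm_mul, norm_pow] using h

theorem Conv.summable {p : ℂ⟦X⟧} (hp : Conv p) {q : ℂ} (hq : ‖q‖ < 1) :
    Summable (fun n => coeff n p * q ^ n) := (hp.norm hq).of_norm

theorem Conv.hasSum {p : ℂ⟦X⟧} (hp : Conv p) {q : ℂ} (hq : ‖q‖ < 1) :
    HasSum (fun n => coeff n p * q ^ n) (ev p q) := (hp.summable hq).hasSum

theorem Conv.add {p r : ℂ⟦X⟧} (hp : Conv p) (hr : Conv r) : Conv (p + r) := by
  intro x hx hx1
  refine Summable.of_nonneg_of_le (fun n => by positivity) (fun n => ?_)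
    ((hp x hx hx1).add (hr x hx hx1))
  rw [map_add, ← add_mul]
  exact mul_le_mul_of_nonneg_right (norm_add_le _ _) (by positivity)

theorem Conv.neg {p : ℂ⟦X⟧} (hp : Conv p) : Conv (-p) := by
  intro x hx hx1
  simpa using hp x hx hx1

theorem antidiag_term (p r : ℂ⟦X⟧) (x : ℂ) (n : ℕ) :
    coeff n (p * r) * x ^ n =
      ∑ k ∈ Finset.HasAntidiagonal.antidiagonal n, (coeff k.1 p * x ^ k.1) * (coeff k.2 r * x ^ k.2) := by
  rw [coeff_mul, Finset.sum_mul]
  refine Finset.sum_congr rfl fun k hk => ?_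
  rw [← Finset.HasAntidiagonal.mem_antidiagonal.1 hk, pow_add]
  ring

theorem Conv.mul {p r : ℂ⟦X⟧} (hp : Conv p) (hr : Conv r) : Conv (p * r) := by
  intro x hx hx1
  have hx2 : ‖(x : ℂ)‖ < 1 := by
    rw [Complex.norm_real, Real.norm_of_nonneg hx]; exact hx1
  have h := summable_norm_sum_mul_antidiagonal_of_summable_norm (hp.norm hx2) (hr.norm hx2)
  refine h.congr fun n => ?_
  rw [← antidiag_term, norm_mul, norm_pow, Complex.norm_real, Real.norm_of_nonneg hx]

theorem conv_C (a : ℂ) : Conv (C a) := by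
  intro x hx hx1
  refine summable_of_ne_finset_zero (s := {0}) fun n hn => ?_
  rw [coeff_C, if_neg (by simpa using hn)]
  simp

theorem conv_X : Conv (X : ℂ⟦X⟧) := by
  intro x hx hx1
  refine summable_of_ne_finset_zero (s := {1}) fun n hn => ?_
  rw [coeff_X, if_neg (by simpa using hn)]
  simp

theorem conv_th {p : ℂ⟦X⟧} (hp : Conv p) : Conv (th p) := by
  intro x hx hx1
  obtain ⟨y, hxy, hy1⟩ := exists_between hx1
  have hy0 : 0 < y := hx.trans_lt hxy
  -- `n (x/y)^n` is bounded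
  have h1 : Tendsto (fun n : ℕ => (n : ℝ) * (x / y) ^ n) atTop (𝓝 0) := by
    have := tendsto_self_mul_const_pow_of_lt_one (r := x / y) (by positivity)
      ((div_lt_one hy0).2 hxy)
    exact this
  obtain ⟨B, hB⟩ := h1.bddAbove_range
  have h2 : ∀ n : ℕ, (n : ℝ) * x ^ n ≤ B * y ^ n := by
    intro n
    have h3 : (n : ℝ) * (x / y) ^ n ≤ B := hB ⟨n, rfl⟩
    rw [div_pow, ← mul_div_assoc, div_le_iff₀ (by positivity)] at h3
    exact h3
  refine Summable.of_nonneg_of_le (fun n => by positivity) (fun n => ?_)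
    ((hp y hy0.le hy1).mul_left B)
  rw [coeff_th, norm_mul, Complex.norm_natCast]
  calc (n : ℝ) * ‖coeff n p‖ * x ^ n = ‖coeff n p‖ * ((n : ℝ) * x ^ n) := by ring
    _ ≤ ‖coeff n p‖ * (B * y ^ n) := mul_le_mul_of_nonneg_left (h2 n) (norm_nonneg _)
    _ = B * (‖coeff n p‖ * y ^ n) := by ring

/-- the subring of convergent series -/
noncomputable def CR : Subring ℂ⟦X⟧ where
  carrier := {p | Conv p}
  mul_mem' := fun ha hb => Conv.mul ha hb
  one_mem' := by
    have := conv_C 1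
    simpa using this
  add_mem' := fun ha hb => Conv.add ha hb
  zero_mem' := by
    have := conv_C 0
    simpa using this
  neg_mem' := fun ha => Conv.neg ha

theorem mem_CR {p : ℂ⟦X⟧} : p ∈ CR ↔ Conv p := Iff.rfl

theorem ev_C (a q : ℂ) : ev (C a) q = a := by
  unfold ev
  rw [tsum_eq_single 0]
  · simp
  · intro n hn
    rw [coeff_C, if_neg hn, zero_mul]

theorem ev_X (q : ℂ) : ev (X : ℂ⟦X⟧) q = q := by
  unfold ev
  rw [tsum_eq_single 1]
  · simp
  · intro n hn
    rw [coeff_X, if_neg hn, zero_mul]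

theorem ev_add {p r : ℂ⟦X⟧} (hp : Conv p) (hr : Conv r) {q : ℂ} (hq : ‖q‖ < 1) :
    ev (p + r) q = ev p q + ev r q := by
  have h := (hp.hasSum hq).add (hr.hasSum hq)
  refine ((h.congr_fun ?_).tsum_eq)
  intro n
  rw [map_add, add_mul]

theorem ev_mul {p r : ℂ⟦X⟧} (hp : Conv p) (hr : Conv r) {q : ℂ} (hq : ‖q‖ < 1) :
    ev (p * r) q = ev p q * ev r q := by
  unfold ev
  rw [tsum_mul_tsum_eq_tsum_sum_antidiagonal_of_summable_norm (hp.norm hq) (hr.norm hq)]
  exact tsum_congr fun n => antidiag_term p r q n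

/-- evaluation as a ring homomorphism -/
noncomputable def evH (q : ℂ) (hq : ‖q‖ < 1) : CR →+* ℂ where
  toFun p := ev p q
  map_one' := by
    have := ev_C 1 q
    simpa using this
  map_mul' a b := ev_mul a.2 b.2 hq
  map_zero' := by
    have := ev_C 0 q
    simpa using this
  map_add' a b := ev_add a.2 b.2 hq

theorem evH_apply (q : ℂ) (hq : ‖q‖ < 1) (p : CR) : evH q hq p = ev p q := rfl

/-- factor out a power of `X` -/
theorem Conv.of_X_pow_mul {p : ℂ⟦X⟧} {m : ℕ} (h : Conv (X ^ m * p)) : Conv p := by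
  intro x hx hx1
  obtain ⟨y, hxy, hy1⟩ := exists_between hx1
  have hy0 : 0 < y := hx.trans_lt hxy
  have h1 := (summable_nat_add_iff m).2 (h y hy0.le hy1)
  have h2 : ∀ n : ℕ, ‖coeff (n + m) (X ^ m * p)‖ * y ^ (n + m) =
      (‖coeff n p‖ * y ^ n) * y ^ m := by
    intro n
    rw [coeff_X_pow_mul, pow_add]
    ring
  simp_rw [h2] at h1
  have h3 : Summable fun n => ‖coeff n p‖ * y ^ n :=
    (summable_mul_right_iff (by positivity)).1 h1
  refine Summable.of_nonneg_of_le (fun n => by positivity) (fun n => ?_) h3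
  gcongr

/-- boundedness near `0` -/
theorem Conv.bound {p : ℂ⟦X⟧} (hp : Conv p) : ∃ B : ℝ, 0 ≤ B ∧ ∀ q : ℂ, ‖q‖ ≤ 1 / 2 →
    ‖ev p q‖ ≤ B := by
  refine ⟨∑' n, ‖coeff n p‖ * (1 / 2 : ℝ) ^ n, tsum_nonneg fun n => by positivity,
    fun q hq => ?_⟩
  have hq1 : ‖q‖ < 1 := by linarith
  have h2 := hp (1 / 2) (by norm_num) (by norm_num)
  refine (norm_tsum_le_tsum_norm (hp.norm hq1)).trans ?_
  refine (hp.norm hq1).tsum_le_tsum (fun n => ?_) h2
  rw [norm_mul, norm_pow]
  gcongr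

/-- continuity at `0` -/
theorem Conv.tendsto {p : ℂ⟦X⟧} (hp : Conv p) :
    Tendsto (fun q => ev p q) (𝓝 0) (𝓝 (constantCoeff p)) := by
  obtain ⟨r, hr⟩ : ∃ r : ℂ⟦X⟧, p = C (constantCoeff p) + X * r := by
    have h : (X : ℂ⟦X⟧) ∣ p - C (constantCoeff p) := by
      rw [X_dvd_iff]; simp
    obtain ⟨r, hr⟩ := h
    exact ⟨r, by rw [← hr]; ring⟩
  have hc : Conv (X * r) := by
    have h1 : X * r = p + -(C (constantCoeff p)) := by
      linear_combination (-1 : ℂ⟦X⟧) * hr
    rw [h1]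
    exact hp.add (conv_C _).neg
  have hcr : Conv r := Conv.of_X_pow_mul (m := 1) (by simpa using hc)
  obtain ⟨B, hB0, hB⟩ := hcr.bound
  have h1 : ∀ q : ℂ, ‖q‖ ≤ 1 / 2 → ‖ev p q - constantCoeff p‖ ≤ B * ‖q‖ := by
    intro q hq
    have hq1 : ‖q‖ < 1 := by linarith
    have h2 : ev p q = constantCoeff p + q * ev r q := by
      nth_rewrite 1 [hr]
      rw [ev_add (conv_C _) hc hq1, ev_C, ev_mul conv_X hcr hq1, ev_X]
    rw [h2, add_sub_cancel_left, norm_mul, mul_comm]
    gcongr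
    exact hB q hq
  rw [tendsto_iff_norm_sub_tendsto_zero]
  have h3 : Tendsto (fun q : ℂ => B * ‖q‖) (𝓝 0) (𝓝 0) := by
    have : Tendsto (fun q : ℂ => B * ‖q‖) (𝓝 0) (𝓝 (B * ‖(0 : ℂ)‖)) :=
      (continuous_const.mul continuous_norm).tendsto 0
    simpa using this
  refine squeeze_zero' (Eventually.of_forall fun q => norm_nonneg _) ?_ h3
  have h4 : ∀ᶠ q : ℂ in 𝓝 0, ‖q‖ ≤ 1 / 2 := by
    have := Metric.closedBall_mem_nhds (0 : ℂ) (by norm_num : (0 : ℝ) < 1 / 2)
    filter_upwards [this] with q hq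
    simpa using hq
  filter_upwards [h4] with q hq using h1 q hq

/-- uniqueness -/
theorem Conv.eq_zero {p : ℂ⟦X⟧} (hp : Conv p) (h : ∀ q : ℂ, q ≠ 0 → ‖q‖ < 1 → ev p q = 0) :
    p = 0 := by
  by_contra hne
  obtain ⟨m, r, hr0, hr⟩ : ∃ (m : ℕ) (r : ℂ⟦X⟧), constantCoeff r ≠ 0 ∧ p = X ^ m * r := by
    obtain ⟨m, hm, hlt⟩ : ∃ m, coeff m p ≠ 0 ∧ ∀ k < m, coeff k p = 0 := by
      classical
      have hex : ∃ m, coeff m p ≠ 0 := by
        by_contra hall
        push Not at hall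
        exact hne (PowerSeries.ext (by simpa using hall))
      exact ⟨Nat.find hex, Nat.find_spec hex, fun k hk => by
        have := Nat.find_min hex hk
        simpa using this⟩
    obtain ⟨r, hr⟩ := X_pow_dvd_iff.2 (fun k hk => hlt k hk)
    refine ⟨m, r, ?_, hr⟩
    rw [hr] at hm
    intro h0
    apply hm
    have h1 := coeff_X_pow_mul r m 0
    rw [zero_add] at h1
    rw [h1]
    simpa using h0
  have hcr : Conv r := Conv.of_X_pow_mul (m := m) (by rw [← hr]; exact hp)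
  have h1 : ∀ q : ℂ, q ≠ 0 → ‖q‖ < 1 → ev r q = 0 := by
    intro q hq0 hq
    have h2 := h q hq0 hq
    have hX : ev (X ^ m : ℂ⟦X⟧) q = q ^ m := by
      have := (evH q hq).map_pow ⟨X, conv_X⟩ m
      rw [evH_apply, evH_apply, ev_X] at this
      exact this
    have hXc : Conv (X ^ m : ℂ⟦X⟧) := CR.pow_mem conv_X m
    rw [hr, ev_mul hXc hcr hq, hX] at h2
    exact (mul_eq_zero.1 h2).resolve_left (pow_ne_zero _ hq0)
  have h3 := hcr.tendsto.mono_left (nhdsWithin_le_nhds (s := {0}ᶜ))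
  have h4 : Tendsto (fun q : ℂ => ev r q) (𝓝[≠] 0) (𝓝 0) := by
    refine tendsto_const_nhds.congr' ?_
    have h5 : ∀ᶠ q : ℂ in 𝓝[≠] 0, ‖q‖ < 1 := by
      have := nhdsWithin_le_nhds (s := {(0 : ℂ)}ᶜ) (Metric.ball_mem_nhds (0 : ℂ) one_pos)
      filter_upwards [this] with q hq
      simpa using hq
    filter_upwards [h5, self_mem_nhdsWithin] with q hq hq0
    exact (h1 q hq0 hq).symm
  exact hr0 (tendsto_nhds_unique h3 h4)

/-- `exp (2 π i z)` -/
noncomputable def qq (z : ℂ) : ℂ := Complex.exp (2 * Real.pi * Complex.I * z)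

theorem norm_qq (z : ℂ) : ‖qq z‖ = Real.exp (-(2 * Real.pi * z.im)) := by
  unfold qq
  rw [Complex.norm_exp]
  congr 1
  simp

theorem norm_qq_lt {z : ℂ} (hz : 0 < z.im) : ‖qq z‖ < 1 := by
  rw [norm_qq, Real.exp_lt_one_iff]
  have := Real.pi_pos
  have : 0 < 2 * Real.pi * z.im := by positivity
  linarith

theorem hasDerivAt_qq (z : ℂ) : HasDerivAt qq (2 * Real.pi * Complex.I * qq z) z := by
  have h1 : HasDerivAt (fun w : ℂ => 2 * Real.pi * Complex.I * w) (2 * Real.pi * Complex.I) z := by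
    simpa using (hasDerivAt_id z).const_mul (2 * Real.pi * Complex.I)
  exact h1.cexp.congr_deriv (mul_comm _ _)

/-- derivative in `z`, `q = exp (2 π i z)` -/
theorem Conv.hasDerivAt {p : ℂ⟦X⟧} (hp : Conv p) {z : ℂ} (hz : 0 < z.im) :
    HasDerivAt (fun w => ev p (qq w)) (2 * Real.pi * Complex.I * ev (th p) (qq z)) z := by
  set t : Set ℂ := {w | z.im / 2 < w.im} with ht
  have hto : IsOpen t := isOpen_lt continuous_const Complex.continuous_im
  have htc : IsPreconnected t := (convex_halfSpace_im_gt (z.im / 2)).isPreconnected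
  set r : ℝ := Real.exp (-(2 * Real.pi * (z.im / 2))) with hr
  have hr0 : 0 ≤ r := (Real.exp_pos _).le
  have hr1 : r < 1 := by
    rw [hr, Real.exp_lt_one_iff]
    have := Real.pi_pos
    have : 0 < 2 * Real.pi * (z.im / 2) := by positivity
    linarith
  have hsum := (conv_th hp r hr0 hr1).mul_left (2 * Real.pi)
  have hmem : z ∈ t := by
    show z.im / 2 < z.im
    linarith
  have key := hasDerivAt_tsum_of_isPreconnected (g := fun n w => coeff n p * qq w ^ n)
    (g' := fun n w => 2 * Real.pi * Complex.I * (coeff n (th p) * qq w ^ n)) hsum hto htc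
    (fun n w hw => ?_) (fun n w hw => ?_) hmem (hp.summable (norm_qq_lt hz)) hmem
  · have h1 : ∑' n, 2 * Real.pi * Complex.I * (coeff n (th p) * qq z ^ n) =
        2 * Real.pi * Complex.I * ev (th p) (qq z) := by
      rw [tsum_mul_left]; rfl
    rw [← h1]
    exact key
  · have h2 := ((hasDerivAt_qq w).pow n).const_mul (coeff n p)
    refine h2.congr_deriv ?_
    rw [coeff_th]
    cases n with
    | zero => simp
    | succ k =>
      simp only [Nat.add_sub_cancel]
      push_cast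
      ring
  · have h3 : ‖qq w‖ ≤ r := by
      rw [norm_qq, hr, Real.exp_le_exp]
      have hw' : z.im / 2 < w.im := hw
      have := Real.pi_pos
      nlinarith
    have h4 : ‖(2 : ℂ) * Real.pi * Complex.I‖ = 2 * Real.pi := by
      rw [norm_mul, norm_mul, Complex.norm_I, Complex.norm_real,
        Real.norm_of_nonneg Real.pi_pos.le]
      norm_num
    rw [norm_mul, h4, norm_mul, norm_pow]
    have := Real.pi_pos
    gcongr

end Vale.Agent.P004H.H204
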