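import Vale.Agent.P004H.H204.Quart
import Vale.Agent.P004H.H792.Q11
import Vale.Agent.P004H.H833.Dim1

/-!
# P004H (H204): the quartic identity, conclusion
-/

open Complex Filter Topology
open UpperHalfPlane hiding I
open scoped Real MatrixGroups ModularForm Manifold ArithmeticFunction.sigma

namespace Vale.Agent.P004H.H204

open H792 (Fc Fc_mob Fc_W Fc_ne Fc_diff im11 im_div11 den_ne' im_S im_ne)

section formal

theorem map_th (p : PowerSeries ℤ) : PowerSeries.map (Int.castRingHom ℂ) (th p) =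
    th (PowerSeries.map (Int.castRingHom ℂ) p) := by
  ext n
  rw [PowerSeries.coeff_map, coeff_th, coeff_th, PowerSeries.coeff_map]
  simp

theorem map_DD (f E : PowerSeries ℤ) : PowerSeries.map (Int.castRingHom ℂ) (DD f E) =
    DD (PowerSeries.map (Int.castRingHom ℂ) f) (PowerSeries.map (Int.castRingHom ℂ) E) := by
  unfold DD
  simp only [map_sub, map_mul, map_pow, map_ofNat, map_th]

theorem sigma_small : σ 1 1 = 1 ∧ σ 1 2 = 3 ∧ σ 1 3 = 4 ∧ σ 1 4 = 7 := by
  refine ⟨?_, ?_, ?_, ?_⟩ <;> decide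

theorem mk_succ (c : ℕ → ℤ) : PowerSeries.mk c =
    PowerSeries.C (c 0) + PowerSeries.X * PowerSeries.mk (fun n => c (n + 1)) := by
  ext n
  cases n with
  | zero => simp
  | succ n =>
    rw [map_add, PowerSeries.coeff_succ_X_mul, PowerSeries.coeff_mk, PowerSeries.coeff_mk,
      PowerSeries.coeff_C, if_neg (Nat.succ_ne_zero n), zero_add]

theorem mk_five (c : ℕ → ℤ) : PowerSeries.mk c =
    PowerSeries.C (c 0) + PowerSeries.C (c 1) * PowerSeries.X +
      PowerSeries.C (c 2) * PowerSeries.X ^ 2 + PowerSeries.C (c 3) * PowerSeries.X ^ 3 +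
      PowerSeries.C (c 4) * PowerSeries.X ^ 4 +
      PowerSeries.X ^ 5 * PowerSeries.mk (fun n => c (n + 5)) := by
  rw [mk_succ c, mk_succ (fun n => c (n + 1)), mk_succ (fun n => c (n + 1 + 1)),
    mk_succ (fun n => c (n + 1 + 1 + 1)), mk_succ (fun n => c (n + 1 + 1 + 1 + 1))]
  simp only [zero_add]
  norm_num [Nat.add_assoc]
  ring

theorem mk_cE : PowerSeries.mk cE = 5 + 12 * Sz := by
  ext n
  have h5 : (5 : PowerSeries ℤ) = PowerSeries.C 5 := by simp
  have h12 : (12 : PowerSeries ℤ) = PowerSeries.C 12 := by simp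
  rw [map_add, h5, h12, PowerSeries.coeff_C_mul, PowerSeries.coeff_C, PowerSeries.coeff_mk]
  unfold cE Sz
  rw [PowerSeries.coeff_mk]
  by_cases hn : n = 0
  · rw [if_pos hn, if_pos hn, hn]
    unfold sg
    simp
  · rw [if_neg hn, if_neg hn, zero_add]

theorem const_Sz : PowerSeries.constantCoeff Sz = 0 := by
  unfold Sz
  rw [← PowerSeries.coeff_zero_eq_constantCoeff_apply, PowerSeries.coeff_mk]
  unfold sg
  simp

theorem cE_table : cE 0 = 5 ∧ cE 1 = 12 ∧ cE 2 = 36 ∧ cE 3 = 48 ∧ cE 4 = 84 := by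
  obtain ⟨h1, h2, h3, h4⟩ := sigma_small
  unfold cE sg
  rw [h1, h2, h3, h4]
  norm_num

theorem form {a : ℕ → ℤ} (h0 : a 0 = 0) (h1 : a 1 = 1) (h2 : a 2 = -2) (h3 : a 3 = -1)
    (h4 : a 4 = 2) (h5 : a 5 = 1) :
    ∃ f1 R : PowerSeries ℤ, PowerSeries.mk a = PowerSeries.X * f1 ∧
      PowerSeries.constantCoeff f1 = 1 ∧
      DD (PowerSeries.mk a) (PowerSeries.mk cE) = PowerSeries.X ^ 7 * R := by
  obtain ⟨e0, e1, e2, e3, e4⟩ := cE_table
  have hm : PowerSeries.mk a = PowerSeries.X * PowerSeries.mk (fun n => a (n + 1)) := by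
    rw [mk_succ a, h0, map_zero, zero_add]
  have hf := mk_five (fun n => a (n + 1))
  have hE := mk_five cE
  simp only [zero_add, Nat.reduceAdd, h1, h2, h3, h4, h5] at hf
  rw [e0, e1, e2, e3, e4] at hE
  obtain ⟨R, hR⟩ := DD_dvd (f1 := PowerSeries.mk (fun n => a (n + 1))) (E := PowerSeries.mk cE)
    (g := PowerSeries.mk (fun n => a (n + 5 + 1))) (h := PowerSeries.mk (fun n => cE (n + 5)))
    (by rw [hf]; simp; ring) (by rw [hE]; simp)
  refine ⟨PowerSeries.mk (fun n => a (n + 1)), R, hm, ?_, ?_⟩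
  · rw [← PowerSeries.coeff_zero_eq_constantCoeff_apply, PowerSeries.coeff_mk, zero_add, h1]
  · rw [hm]
    exact hR

end formal

theorem tendsto_qq : Tendsto (fun z : ℍ => qq (z : ℂ)) atImInfty (𝓝 0) := by
  rw [tendsto_zero_iff_norm_tendsto_zero]
  simp only [norm_qq]
  have h1 : Tendsto (fun z : ℍ => 2 * π * (z : ℂ).im) atImInfty atTop := by
    have h2 : Tendsto (fun z : ℍ => (z : ℂ).im) atImInfty atTop := tendsto_comap
    exact h2.const_mul_atTop (by positivity)
  exact Real.tendsto_exp_neg_atTop_nhds_zero.comp h1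

theorem exists_qq {q : ℂ} (hq0 : q ≠ 0) (hq : ‖q‖ < 1) : ∃ z : ℂ, 0 < z.im ∧ qq z = q := by
  have h2 : (2 * π * I : ℂ) ≠ 0 := by simp [Real.pi_ne_zero]
  refine ⟨Complex.log q / (2 * π * I), ?_, ?_⟩
  · have h1 : qq (Complex.log q / (2 * π * I)) = q := by
      unfold qq
      rw [mul_div_cancel₀ _ h2, Complex.exp_log hq0]
    have h3 := norm_qq (Complex.log q / (2 * π * I))
    rw [h1] at h3
    by_contra hn
    push Not at hn
    have hpi := Real.pi_pos
    have h4 : 0 ≤ -(2 * π * (Complex.log q / (2 * π * I)).im) := by nlinarith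
    have h5 := Real.one_le_exp h4
    linarith
  · unfold qq
    rw [mul_div_cancel₀ _ h2, Complex.exp_log hq0]

/-- **The quartic identity.** -/
theorem quartic_of {a : ℕ → ℤ} (hq : QF a) (h0 : a 0 = 0) (h1 : a 1 = 1)
    (h2 : a 2 = -2) (h3 : a 3 = -1) (h4 : a 4 = 2) (h5 : a 5 = 1) :
    Quartic (PowerSeries.mk a) (5 + 12 * Sz) := by
  obtain ⟨f1, R, hm, hf1, hR⟩ := form h0 h1 h2 h3 h4 h5
  set φ := PowerSeries.map (Int.castRingHom ℂ) with hφ
  have hDR : DD (cs a) (cs cE) = PowerSeries.X ^ 7 * φ R := by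
    have h6 := congrArg φ hR
    rw [hφ, map_DD, map_mul, map_pow, PowerSeries.map_X] at h6
    exact h6
  have hcR : Conv (φ R) := Conv.of_X_pow_mul (m := 7) (by rw [← hDR]; exact hq.convD)
  have hcf : cs a = PowerSeries.X * φ f1 := by
    unfold cs
    rw [hm, map_mul, PowerSeries.map_X]
  have hcf1 : Conv (φ f1) := Conv.of_X_pow_mul (m := 1) (by
    rw [pow_one, ← hcf]; exact hq.conv)
  -- the relation near the cusp
  have hrel : ∀ z : ℂ, 0 < z.im → gg a z * ev (φ f1) (qq z) ^ 6 = qq z * ev (φ R) (qq z) := by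
    intro z hz
    have hn := norm_qq_lt hz
    have hq0 : qq z ≠ 0 := Complex.exp_ne_zero _
    have h6 := hq.gg_eq hz
    have hX : ev (PowerSeries.X ^ 7 : PowerSeries ℂ) (qq z) = qq z ^ 7 := by
      have := (evH (qq z) hn).map_pow ⟨PowerSeries.X, conv_X⟩ 7
      rw [evH_apply, evH_apply, ev_X] at this
      exact this
    have hXc : Conv (PowerSeries.X ^ 7 : PowerSeries ℂ) := CR.pow_mem conv_X 7
    rw [hDR, ev_mul hXc hcR hn, hX, hcf, ev_mul conv_X hcf1 hn, ev_X] at h6
    apply mul_left_cancel₀ (pow_ne_zero 6 hq0)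
    linear_combination h6
  -- limit
  have hlim : Tendsto (fun z : ℍ => gg a z) atImInfty (𝓝 0) := by
    have ht := tendsto_qq
    have hA : Tendsto (fun z : ℍ => ev (φ f1) (qq z)) atImInfty (𝓝 1) := by
      have h7 := hcf1.tendsto.comp ht
      have h8 : PowerSeries.constantCoeff (φ f1) = 1 := by
        rw [← PowerSeries.coeff_zero_eq_constantCoeff_apply, hφ, PowerSeries.coeff_map,
          PowerSeries.coeff_zero_eq_constantCoeff_apply, hf1]
        simp
      rw [h8] at h7
      exact h7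
    have hB : Tendsto (fun z : ℍ => ev (φ R) (qq z)) atImInfty
        (𝓝 (PowerSeries.constantCoeff (φ R))) := hcR.tendsto.comp ht
    have hC := (ht.mul hB).div (hA.pow 6) (by norm_num)
    rw [zero_mul, zero_div] at hC
    refine hC.congr' ?_
    have hne : ∀ᶠ z : ℍ in atImInfty, ev (φ f1) (qq z) ≠ 0 :=
      hA.eventually_ne one_ne_zero
    filter_upwards [hne] with z hz
    simp only [Pi.div_apply]
    rw [div_eq_iff (pow_ne_zero 6 hz)]
    exact (hrel z z.2).symm
  have hbd : IsBoundedAtImInfty (fun z : ℍ => gg a z) := by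
    unfold IsBoundedAtImInfty Filter.BoundedAtFilter
    exact hlim.isBigO_one ℝ
  have hM : MDiff (fun z : ℍ => gg a z) := by
    rw [UpperHalfPlane.mdifferentiable_iff]
    intro z hz
    have h6 : DifferentiableAt ℂ (gg a) z := hq.gg_diff hz
    refine (h6.congr_of_eventuallyEq ?_).differentiableWithinAt
    filter_upwards [eventually_im hz] with w hw
    simp only [Function.comp_apply]
    rw [ofComplex_apply_of_im_pos hw]
  have hI : ∀ g ∈ CongruenceSubgroup.Gamma0 11, ∀ z : ℍ, gg a (g • z : ℍ) = gg a z := by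
    intro g hg z
    rw [CongruenceSubgroup.Gamma0_mem] at hg
    obtain ⟨c, hc⟩ := (ZMod.intCast_zmod_eq_zero_iff_dvd (g 1 0) 11).1 hg
    have hdet : g 0 0 * g 1 1 - g 0 1 * g 1 0 = 1 := H792.det_eq g
    have hc' : g 1 0 = 11 * c := by
      rw [hc]
      norm_num
    rw [hc'] at hdet
    have h1' : ((g • z : ℍ) : ℂ) =
        ((g 0 0 : ℤ) * z + (g 0 1 : ℤ)) / ((11 * c : ℤ) * z + (g 1 1 : ℤ)) := by
      rw [UpperHalfPlane.specialLinearGroup_apply, ← hc']
      simp
    rw [h1']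
    exact hq.gg_mob hdet z.2
  have hS : IsBoundedAtImInfty (fun z : ℍ => gg a (ModularGroup.S • z : ℍ)) := by
    have h6 : ∀ z : ℍ, gg a (ModularGroup.S • z : ℍ) = gg a ((z : ℂ) / 11) := by
      intro z
      have h7 : ((ModularGroup.S • z : ℍ) : ℂ) = -1 / (11 * ((z : ℂ) / 11)) := by
        rw [UpperHalfPlane.modular_S_smul]
        have := z.ne_zero
        field_simp
      rw [h7]
      exact hq.gg_W (im_div11 z.2)
    simp only [h6]
    have h8 : Tendsto (fun z : ℍ => (⟨(z : ℂ) / 11, im_div11 z.2⟩ : ℍ)) atImInfty atImInfty := by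
      rw [atImInfty, tendsto_comap_iff]
      have h9 : Tendsto (fun z : ℍ => z.im / 11) (comap UpperHalfPlane.im atTop) atTop :=
        tendsto_comap.atTop_div_const (by norm_num)
      refine h9.congr fun z => ?_
      simp only [Function.comp_apply]
      rw [← UpperHalfPlane.coe_im, ← UpperHalfPlane.coe_im]
      show (z : ℂ).im / 11 = ((z : ℂ) / 11).im
      rw [show (z : ℂ) / 11 = ((1 / 11 : ℝ) : ℂ) * z by push_cast; ring, im_ofReal_mul]
      ring
    have h10 := hlim.comp h8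
    unfold IsBoundedAtImInfty Filter.BoundedAtFilter
    exact h10.isBigO_one ℝ
  obtain ⟨c, hc⟩ := H833.zero_of (fun z : ℍ => gg a z) hM hI hbd hS
  -- the constant is zero
  have hc0 : c = 0 := by
    have h6 : Tendsto (fun z : ℍ => gg a z) atImInfty (𝓝 c) := by
      simp only [hc]
      exact tendsto_const_nhds
    have : (atImInfty : Filter ℍ).NeBot := inferInstance
    exact tendsto_nhds_unique h6 hlim
  have hD0 : DD (cs a) (cs cE) = 0 := by
    apply hq.convD.eq_zero
    intro q hq0 hq1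
    obtain ⟨z, hz, rfl⟩ := exists_qq hq0 hq1
    rw [← hq.gg_eq hz]
    have h7 := hc ⟨z, hz⟩
    simp only at h7
    rw [h7, hc0, zero_mul]
  rw [quartic_iff, ← mk_cE]
  have h8 : φ (DD (PowerSeries.mk a) (PowerSeries.mk cE)) = 0 := by
    rw [hφ, map_DD]
    exact hD0
  have hinj : Function.Injective φ := by
    rw [hφ]
    exact PowerSeries.map_injective _ (Int.cast_injective (α := ℂ))
  exact hinj (by rw [h8, map_zero])

/-- **The quartic identity for the `q`-expansion `H792.a` of `eta(z)^2 eta(11z)^2`.** -/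
theorem quartic : Quartic (PowerSeries.mk H792.a) (5 + 12 * Sz) := by
  obtain ⟨h0, h1, h2, h3, h4, h5, _⟩ := H792.a_table
  exact quartic_of ⟨fun z hz => H792.hasSum_Fc hz⟩ h0 h1 h2 h3 h4 h5

/-- `mk a = X * f1` -/
theorem mk_a : PowerSeries.mk H792.a =
    PowerSeries.X * PowerSeries.mk (fun n => H792.a (n + 1)) := by
  rw [mk_succ H792.a, H792.a_zero, map_zero, zero_add]

/-- **`a n = σ(n) - 11 σ(n/11)` modulo 5** -/
theorem a_mod_five (n : ℕ) : (5 : ℤ) ∣ H792.a n - sg n := by
  have h1 : PowerSeries.coeff 1 (PowerSeries.mk H792.a) = 1 := by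
    rw [PowerSeries.coeff_mk, H792.a_one]
  obtain ⟨T, hT⟩ := five h1 quartic
  have h2 := congrArg (PowerSeries.coeff n) hT
  have h5 : (5 : PowerSeries ℤ) = PowerSeries.C 5 := by simp
  rw [map_add, h5, PowerSeries.coeff_C_mul, PowerSeries.coeff_mk] at h2
  unfold Sz at h2
  rw [PowerSeries.coeff_mk] at h2
  refine ⟨-PowerSeries.coeff n T, ?_⟩
  linarith

/-- for a prime `p ≠ 11` -/
theorem a_prime_mod_five {p : ℕ} (hp : p.Prime) (h11 : p ≠ 11) :
    (5 : ℤ) ∣ H792.a p - (1 + p) := by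
  have h := a_mod_five p
  have h2 : sg p = 1 + p := by
    unfold sg
    have h3 : ¬ 11 ∣ p := by
      intro h4
      exact h11 ((Nat.prime_dvd_prime_iff_eq (by norm_num) hp).1 h4).symm
    rw [if_neg h3, ArithmeticFunction.sigma_one_apply, hp.sum_divisors]
    push_cast
    ring
  rwa [h2] at h

end Vale.Agent.P004H.H204
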