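import Mathlib

/-!
# P004H (H204): formal consequences of the quartic identity between the weight two forms of
level 11

`f = X * f1`, `E = 5 + 12 S`; `th = X d/dX`. The quartic identity is

`25 (E th f - f th E)^2 = f^2 (E^4 - 68 E^3 f - 616 E^2 f^2 - 252 E f^3 - 1504 f^4)`.
-/

open PowerSeries

namespace Vale.Agent.P004H.H204

/-- `q d/dq` -/
noncomputable def th {R : Type*} [CommRing R] : Derivation R R⟦X⟧ R⟦X⟧ :=
  (X : R⟦X⟧) • PowerSeries.derivative R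

theorem th_apply {R : Type*} [CommRing R] (p : R⟦X⟧) :
    th p = X * PowerSeries.derivative R p := rfl

theorem coeff_th {R : Type*} [CommRing R] (p : R⟦X⟧) (n : ℕ) :
    coeff n (th p) = n * coeff n p := by
  rw [th_apply]
  cases n with
  | zero => simp
  | succ n =>
    rw [coeff_succ_X_mul, PowerSeries.coeff_derivative]
    push_cast
    ring

theorem th_mul {R : Type*} [CommRing R] (a b : R⟦X⟧) : th (a * b) = a * th b + b * th a := by
  simp [Derivation.leibniz]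

theorem th_X {R : Type*} [CommRing R] : th (X : R⟦X⟧) = X := by
  rw [th_apply]
  simp

theorem th_int (n : ℤ) : th (n : ℤ⟦X⟧) = 0 := by
  simp

theorem th_nat {R : Type*} [CommRing R] (n : ℕ) : th (n : R⟦X⟧) = 0 := by
  simp

theorem th_pow {R : Type*} [CommRing R] (a : R⟦X⟧) (n : ℕ) :
    th (a ^ (n + 1)) = ((n : R⟦X⟧) + 1) * a ^ n * th a := by
  rw [Derivation.leibniz_pow]
  simp only [Nat.add_sub_cancel, smul_eq_mul, nsmul_eq_mul]
  push_cast
  ring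

/-- all coefficients divisible by the prime `p` -/
theorem exists_of_map_eq_zero {p : ℕ} (a : ℤ⟦X⟧)
    (h : PowerSeries.map (Int.castRingHom (ZMod p)) a = 0) : ∃ b : ℤ⟦X⟧, a = (p : ℤ⟦X⟧) * b := by
  refine ⟨PowerSeries.mk fun n => coeff n a / p, ?_⟩
  ext n
  have h1 : ((coeff n a : ℤ) : ZMod p) = 0 := by
    have h2 := congrArg (coeff n) h
    simpa using h2
  have h3 : (p : ℤ) ∣ coeff n a := (ZMod.intCast_zmod_eq_zero_iff_dvd _ p).1 h1
  have h4 : ((p : ℤ⟦X⟧) * PowerSeries.mk fun n => coeff n a / (p : ℤ)) =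
      PowerSeries.C (p : ℤ) * PowerSeries.mk fun n => coeff n a / (p : ℤ) := by
    simp
  rw [h4, PowerSeries.coeff_C_mul, coeff_mk]
  exact (Int.mul_ediv_cancel' h3).symm

/-- the quartic identity -/
def Quartic (f E : ℤ⟦X⟧) : Prop :=
  25 * (E * th f - f * th E) ^ 2 =
    f ^ 2 * (E ^ 4 - 68 * E ^ 3 * f - 616 * E ^ 2 * f ^ 2 - 252 * E * f ^ 3 - 1504 * f ^ 4)

theorem two_ne_zmod5 : (2 : ZMod 5) ≠ 0 := by decide

/-- **`f = S` modulo 5** -/
theorem five {f S : ℤ⟦X⟧} (hf : coeff 1 f = 1) (hQ : Quartic f (5 + 12 * S)) :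
    ∃ T : ℤ⟦X⟧, S = f + 5 * T := by
  have : Fact (Nat.Prime 5) := ⟨by norm_num⟩
  set φ := PowerSeries.map (Int.castRingHom (ZMod 5)) with hφ
  have h5 : (5 : (ZMod 5)⟦X⟧) = 0 := by
    have : ((5 : ℕ) : (ZMod 5)⟦X⟧) = 0 := by
      have h1 : ((5 : ℕ) : ZMod 5) = 0 := ZMod.natCast_self 5
      rw [← map_natCast (PowerSeries.C (R := ZMod 5)), h1, map_zero]
    exact_mod_cast this
  unfold Quartic at hQ
  generalize th (5 + 12 * S) = e at hQ
  generalize th f = a at hQ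
  have h1 := congrArg φ hQ
  simp only [map_mul, map_pow, map_sub, map_add, map_ofNat] at h1
  have h2 : (φ f) ^ 2 * (2 * (φ S - φ f)) ^ 4 = 0 := by
    linear_combination (-1 : (ZMod 5)⟦X⟧) * h1 + (5 * ((5 + 12 * φ S) * φ a - φ f * φ e) ^ 2 +
      (-125 * φ f ^ 2 - 1200 * φ f ^ 2 * φ S - 4320 * φ f ^ 2 * φ S ^ 2 -
        6912 * φ f ^ 2 * φ S ^ 3 - 4144 * φ f ^ 2 * φ S ^ 4 + 1700 * φ f ^ 3 +
        12240 * φ f ^ 3 * φ S + 29376 * φ f ^ 3 * φ S ^ 2 + 23488 * φ f ^ 3 * φ S ^ 3 +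
        3080 * φ f ^ 4 + 14784 * φ f ^ 4 * φ S + 17760 * φ f ^ 4 * φ S ^ 2 + 252 * φ f ^ 5 +
        592 * φ f ^ 5 * φ S + 304 * φ f ^ 6)) * h5
  have hf0 : φ f ≠ 0 := by
    intro h0
    have h3 := congrArg (coeff 1) h0
    simp [hφ, hf] at h3
  have h20 : (2 : (ZMod 5)⟦X⟧) ≠ 0 := by
    intro h0
    have h3 := congrArg (coeff 0) h0
    rw [show (2 : (ZMod 5)⟦X⟧) = PowerSeries.C (2 : ZMod 5) from
      (map_ofNat (PowerSeries.C (R := ZMod 5)) 2).symm] at h3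
    rw [coeff_C, if_pos rfl, map_zero] at h3
    exact absurd h3 two_ne_zmod5
  have h3 : φ S - φ f = 0 := by
    rcases mul_eq_zero.1 h2 with h | h
    · exact absurd (pow_eq_zero_iff (two_ne_zero)|>.1 h) hf0
    · have := pow_eq_zero_iff (four_ne_zero) |>.1 h
      exact (mul_eq_zero.1 this).resolve_left h20
  obtain ⟨T, hT⟩ := exists_of_map_eq_zero (p := 5) (S - f) (by rw [map_sub]; exact h3)
  refine ⟨T, ?_⟩
  have : ((5 : ℕ) : ℤ⟦X⟧) = 5 := by norm_num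
  rw [this] at hT
  linear_combination hT

theorem nat_cast_ne_zero {n : ℕ} (h : n ≠ 0) : (n : ℤ⟦X⟧) ≠ 0 := by
  intro h0
  have h1 := congrArg (constantCoeff (R := ℤ)) h0
  rw [map_natCast, map_zero] at h1
  exact h (by exact_mod_cast h1)

/-- **The integral Weierstrass parametrisation of `11a1`.** In terms of `x = X^-2 X₁`,
`y' = 2 y + 1 = X^-3 Y₀`, `f = X f1`: `y'^2 = 4 x^3 - 4 x^2 - 40 x - 79`, `th x = - y' f`. -/
theorem param {f1 S : ℤ⟦X⟧} (h1 : constantCoeff f1 = 1) (hS : constantCoeff S = 0)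
    (hQ : Quartic (X * f1) (5 + 12 * S)) :
    ∃ X₁ Y₀ : ℤ⟦X⟧, constantCoeff X₁ = 1 ∧ constantCoeff Y₀ = 2 ∧
      Y₀ ^ 2 = 4 * X₁ ^ 3 - 4 * X ^ 2 * X₁ ^ 2 - 40 * X ^ 4 * X₁ - 79 * X ^ 6 ∧
      th X₁ - 2 * X₁ = -(Y₀ * f1) := by
  have hf : coeff 1 ((X : ℤ⟦X⟧) * f1) = 1 := by
    rw [show (1 : ℕ) = 0 + 1 from rfl, coeff_succ_X_mul]
    simpa using h1
  obtain ⟨T, hT⟩ := five hf hQ
  have hT0 : constantCoeff T = 0 := by
    have h := congrArg (constantCoeff (R := ℤ)) hT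
    rw [hS, map_add, map_mul, map_mul, constantCoeff_X] at h
    simp only [map_ofNat] at h
    linarith
  obtain ⟨g1, hg1⟩ : ∃ g1 : ℤ⟦X⟧, f1 * g1 = 1 :=
    ⟨invOfUnit f1 1, mul_invOfUnit f1 1 (by simpa using h1)⟩
  have hf10 : f1 ≠ 0 := by
    rintro rfl
    simp at hg1
  have hX0 : (X : ℤ⟦X⟧) ≠ 0 := X_ne_zero
  -- `G`, `U`, `V`
  obtain ⟨U, hU⟩ : ∃ U : ℤ⟦X⟧, U = (1 + 12 * T) * g1 := ⟨_, rfl⟩
  obtain ⟨V, hV⟩ : ∃ V : ℤ⟦X⟧, V = (th U - U) * g1 := ⟨_, rfl⟩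
  have hUf : U * f1 = 1 + 12 * T := by
    rw [hU]
    linear_combination (1 + 12 * T) * hg1
  have hVf : V * f1 = th U - U := by
    rw [hV]
    linear_combination (th U - U) * hg1
  have hg0 : constantCoeff g1 = 1 := by
    have h := congrArg (constantCoeff (R := ℤ)) hg1
    rw [map_mul, h1, one_mul, map_one] at h
    exact h
  have hU0 : constantCoeff U = 1 := by
    rw [hU, map_mul, hg0, map_add, map_mul, hT0]
    simp
  have hth0 : ∀ a : ℤ⟦X⟧, constantCoeff (th a) = 0 := by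
    intro a
    have := coeff_th a 0
    simpa using this
  have hV0 : constantCoeff V = -1 := by
    rw [hV, map_mul, map_sub, hth0, hU0, hg0]
    norm_num
  -- `E = 5 G + 12 f`
  have hE : (5 + 12 * S : ℤ⟦X⟧) = 5 * (U * f1) + 12 * (X * f1) := by
    rw [hUf, hT]
    ring
  have hthE : th (5 + 12 * S : ℤ⟦X⟧) =
      5 * (U * th f1 + f1 * th U) + 12 * (X * th f1 + f1 * X) := by
    rw [hE, map_add, th_mul, th_mul, th_mul, th_mul, th_X]
    have e5 : th (5 : ℤ⟦X⟧) = 0 := by simpa using th_nat (R := ℤ) 5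
    have e12 : th (12 : ℤ⟦X⟧) = 0 := by simpa using th_nat (R := ℤ) 12
    rw [e5, e12]
    ring
  have hthf : th (X * f1) = X * th f1 + f1 * X := by rw [th_mul, th_X]
  have hV2 : V ^ 2 = U ^ 4 - 4 * X * U ^ 3 - 88 * X ^ 2 * U ^ 2 - 300 * X ^ 3 * U -
      304 * X ^ 4 := by
    unfold Quartic at hQ
    rw [hthE, hthf, hE] at hQ
    have h6 : ((625 : ℤ⟦X⟧) * (X ^ 2 * f1 ^ 6)) ≠ 0 := by
      refine mul_ne_zero ?_ (mul_ne_zero (pow_ne_zero _ hX0) (pow_ne_zero _ hf10))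
      exact_mod_cast nat_cast_ne_zero (n := 625) (by norm_num)
    apply mul_left_cancel₀ h6
    have h7 : th U = U + V * f1 := by rw [hVf]; ring
    rw [h7] at hQ
    linear_combination hQ
  -- `A = W - V` is even
  obtain ⟨W, hW⟩ : ∃ W : ℤ⟦X⟧, W = U ^ 2 - 2 * X * U - 46 * X ^ 2 := ⟨_, rfl⟩
  have hA : (W - V) * (2 * W - (W - V)) = 484 * (X ^ 3 * U + 5 * X ^ 4) := by
    rw [hW]
    linear_combination (-1 : ℤ⟦X⟧) * hV2
  have : Fact (Nat.Prime 2) := ⟨by norm_num⟩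
  have hA2 : PowerSeries.map (Int.castRingHom (ZMod 2)) (W - V) = 0 := by
    have h2 : (2 : (ZMod 2)⟦X⟧) = 0 := by
      have : ((2 : ℕ) : (ZMod 2)⟦X⟧) = 0 := by
        have h1 : ((2 : ℕ) : ZMod 2) = 0 := ZMod.natCast_self 2
        rw [← map_natCast (PowerSeries.C (R := ZMod 2)), h1, map_zero]
      exact_mod_cast this
    have h3 := congrArg (PowerSeries.map (Int.castRingHom (ZMod 2))) hA
    generalize W - V = A at h3 ⊢
    simp only [map_mul, map_sub, map_add, map_pow, map_ofNat] at h3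
    have h4 : (PowerSeries.map (Int.castRingHom (ZMod 2)) A) ^ 2 = 0 := by
      generalize PowerSeries.map (Int.castRingHom (ZMod 2)) A = a at h3 ⊢
      generalize PowerSeries.map (Int.castRingHom (ZMod 2)) W = w at h3
      generalize PowerSeries.map (Int.castRingHom (ZMod 2)) U = u at h3
      generalize PowerSeries.map (Int.castRingHom (ZMod 2)) X = x at h3
      linear_combination (-1 : (ZMod 2)⟦X⟧) * h3 + (a * w - 242 * (x ^ 3 * u + 5 * x ^ 4)) * h2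
    exact pow_eq_zero_iff (two_ne_zero) |>.1 h4
  obtain ⟨X₀, hX⟩ := exists_of_map_eq_zero (p := 2) _ hA2
  have e2 : ((2 : ℕ) : ℤ⟦X⟧) = 2 := by norm_num
  rw [e2] at hX
  have h20 : (2 : ℤ⟦X⟧) ≠ 0 := by exact_mod_cast nat_cast_ne_zero (n := 2) (by norm_num)
  have h40 : (4 : ℤ⟦X⟧) ≠ 0 := by exact_mod_cast nat_cast_ne_zero (n := 4) (by norm_num)
  have hX00 : constantCoeff X₀ = 1 := by
    have h := congrArg (constantCoeff (R := ℤ)) hX
    simp only [hW, map_sub, map_mul, map_pow, hU0, constantCoeff_X, hV0, map_ofNat] at h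
    linarith
  have hXW : X₀ * (W - X₀) = 121 * (X ^ 3 * U + 5 * X ^ 4) := by
    apply mul_left_cancel₀ h40
    rw [hX] at hA
    linear_combination hA
  -- `Y₀`
  obtain ⟨Y₀, hY⟩ : ∃ Y₀ : ℤ⟦X⟧, Y₀ = 2 * X₀ * U - 2 * X * X₀ - 121 * X ^ 3 := ⟨_, rfl⟩
  have hthV : 2 * th V = (4 * U ^ 3 - 12 * X * U ^ 2 - 176 * X ^ 2 * U - 300 * X ^ 3) * f1 +
      4 * V := by
    have hVne : V ≠ 0 := by
      intro h0
      rw [h0, map_zero] at hV0
      exact absurd hV0 (by norm_num)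
    apply mul_left_cancel₀ hVne
    have h := congrArg (th (R := ℤ)) hV2
    have hp2 : ∀ a : ℤ⟦X⟧, th (a ^ 2) = 2 * a * th a := by
      intro a; rw [pow_two, th_mul]; ring
    have hp3 : ∀ a : ℤ⟦X⟧, th (a ^ 3) = 3 * a ^ 2 * th a := by
      intro a; rw [pow_succ, th_mul, hp2]; ring
    have hp4 : ∀ a : ℤ⟦X⟧, th (a ^ 4) = 4 * a ^ 3 * th a := by
      intro a; rw [pow_succ, th_mul, hp3]; ring
    have hc : ∀ n : ℕ, th ((n : ℤ⟦X⟧)) = 0 := fun n => th_nat n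
    have hc4 : th (4 : ℤ⟦X⟧) = 0 := by simpa using hc 4
    have hc88 : th (88 : ℤ⟦X⟧) = 0 := by simpa using hc 88
    have hc300 : th (300 : ℤ⟦X⟧) = 0 := by simpa using hc 300
    have hc304 : th (304 : ℤ⟦X⟧) = 0 := by simpa using hc 304
    simp only [map_sub, th_mul, hp2, hp3, hp4, hc4, hc88, hc300, hc304, th_X] at h
    have h7 : th U = U + V * f1 := by rw [hVf]; ring
    rw [h7] at h
    linear_combination h - 4 * hV2
  have hthX : th X₀ - 2 * X₀ = -(Y₀ * f1) := by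
    apply mul_left_cancel₀ h40
    have h := congrArg (th (R := ℤ)) hX
    have hp2 : ∀ a : ℤ⟦X⟧, th (a ^ 2) = 2 * a * th a := by
      intro a; rw [pow_two, th_mul]; ring
    have hc : ∀ n : ℕ, th ((n : ℤ⟦X⟧)) = 0 := fun n => th_nat n
    have hc2 : th (2 : ℤ⟦X⟧) = 0 := by simpa using hc 2
    have hc46 : th (46 : ℤ⟦X⟧) = 0 := by simpa using hc 46
    rw [hW] at h
    simp only [map_sub, th_mul, hp2, hc2, hc46, th_X] at h
    have h7 : th U = U + V * f1 := by rw [hVf]; ring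
    rw [h7] at h
    have hVX : V = W - 2 * X₀ := by rw [← hX]; ring
    rw [hY]
    have hWe : W = U ^ 2 - 2 * X * U - 46 * X ^ 2 := hW
    linear_combination (-2 : ℤ⟦X⟧) * h - hthV + ((4 * U - 4 * X) * f1 - 4) * hVX +
      ((4 * U - 4 * X) * f1 - 4) * hWe
  refine ⟨X₀ + 16 * X ^ 2, Y₀, ?_, ?_, ?_, ?_⟩
  · rw [map_add, hX00, map_mul, map_pow, constantCoeff_X]
    norm_num
  · simp only [hY, map_sub, map_mul, map_pow, hX00, hU0, constantCoeff_X, map_ofNat]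
    norm_num
  · rw [hY]
    linear_combination (4 : ℤ⟦X⟧) * X₀ * hXW - 4 * X₀ ^ 2 * hW
  · have hc16 : th (16 : ℤ⟦X⟧) = 0 := by simpa using th_nat (R := ℤ) 16
    have hp2 : th ((X : ℤ⟦X⟧) ^ 2) = 2 * X ^ 2 := by rw [pow_two, th_mul, th_X]; ring
    rw [map_add, th_mul, hc16, hp2]
    linear_combination hthX

end Vale.Agent.P004H.H204
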