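import Vale.Agent.P004H.H204.Vel
import Vale.Agent.P004H.H924.Cartier

/-!
# P004H (H204): the coefficients of the form of level 11 modulo `p` from `11a2` and `11a3`
-/

namespace Vale.Agent.P004H.H204

open PowerSeries

/-- `q → 5 q` -/
theorem rescale_th (p : ℤ⟦X⟧) : th (rescale (5 : ℤ) p) = rescale (5 : ℤ) (th p) := by
  ext n
  rw [coeff_th, coeff_rescale, coeff_rescale, coeff_th]
  ring

theorem two_not_dvd {p : ℕ} [Fact p.Prime] (hp2 : p ≠ 2) : ¬ (p : ℤ) ∣ 2 := by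
  intro hd
  have h3 : p ∣ 2 := by exact_mod_cast hd
  exact hp2 ((Nat.prime_dvd_prime_iff_eq (Fact.out : p.Prime) Nat.prime_two).mp h3)

/-- the common form of the application of the Cartier lemma -/
theorem cartier_app {x y f : ℤ⟦X⟧} (b2 b4 b6 : ℤ) (hy : constantCoeff y = 2)
    (hf : constantCoeff f = 1)
    (h : y ^ 2 = 4 * x ^ 3 + (b2 : ℤ⟦X⟧) * X ^ 2 * x ^ 2 + (2 * b4 : ℤ⟦X⟧) * X ^ 4 * x +
      (b6 : ℤ⟦X⟧) * X ^ 6)
    (hth : th x - 2 * x = -(y * f)) (p : ℕ) [Fact p.Prime] (hp2 : p ≠ 2) :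
    ((coeff p (X * f) : ℤ) : ZMod p) =
      -((∑ t : ZMod p, quadraticChar (ZMod p) (4 * t ^ 3 + (b2 : ZMod p) * t ^ 2 +
        2 * (b4 : ZMod p) * t + (b6 : ZMod p)) : ℤ) : ZMod p) := by
  have h' := H924.cartier' p hp2 x y (X * f) b2 b4 b6 (by simp)
    (by rw [show (1 : ℕ) = 0 + 1 from rfl, coeff_succ_X_mul, coeff_zero_eq_constantCoeff_apply,
      hf])
    (by
      rw [coeff_zero_eq_constantCoeff_apply, hy]
      exact two_not_dvd hp2)
    (by
      change X * (th x - 2 * x) = _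
      rw [hth]; ring)
    (by
      rw [h]
      simp only [eq_intCast]) 1
  rw [mul_one, show coeff 1 (X * f) = (1 : ℤ) by
    rw [show (1 : ℕ) = 0 + 1 from rfl, coeff_succ_X_mul, coeff_zero_eq_constantCoeff_apply, hf],
    Int.cast_one, mul_one] at h'
  rw [h', Int.cast_sum]

/-- **`11a2`** -/
theorem join2 {f1 S : ℤ⟦X⟧} (h1 : constantCoeff f1 = 1) (hS : constantCoeff S = 0)
    (hQ : Quartic (X * f1) (5 + 12 * S)) (p : ℕ) [Fact p.Prime] (hp2 : p ≠ 2) :
    ((coeff p (X * f1) : ℤ) : ZMod p) =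
      -((∑ t : ZMod p, quadraticChar (ZMod p) (4 * t ^ 3 + ((-4 : ℤ) : ZMod p) * t ^ 2 +
        2 * ((-15640 : ℤ) : ZMod p) * t + ((-1054319 : ℤ) : ZMod p)) : ℤ) : ZMod p) := by
  obtain ⟨x, y, hx, hy, hxy, hth⟩ := param h1 hS hQ
  obtain ⟨x', s, hx', hs, hxy', hth'⟩ := velu2 hx (by rw [hxy]; ring) hth
  refine cartier_app (x := x') (y := y * s) (-4) (-15640) (-1054319) (by rw [map_mul, hy, hs]; rfl)
    h1 ?_ hth' p hp2
  rw [hxy']
  push_cast
  ring

/-- **`11a3`**, scaled -/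
theorem join3 {f1 S : ℤ⟦X⟧} (h1 : constantCoeff f1 = 1) (hS : constantCoeff S = 0)
    (hQ : Quartic (X * f1) (5 + 12 * S)) (p : ℕ) [Fact p.Prime] (hp2 : p ≠ 2) (hp5 : p ≠ 5) :
    ((coeff p (X * f1) : ℤ) : ZMod p) =
      -((∑ t : ZMod p, quadraticChar (ZMod p) (4 * t ^ 3 + ((-100 : ℤ) : ZMod p) * t ^ 2 +
        2 * ((-260000 : ℤ) : ZMod p) * t + ((176140625 : ℤ) : ZMod p)) : ℤ) : ZMod p) := by
  obtain ⟨x, y, hx, hy, hxy, hth⟩ := param h1 hS hQ
  set r := rescale (5 : ℤ) with hr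
  have hrX : r X = 5 * X := by
    rw [hr, rescale_X]
    simp
  have hr0 : ∀ a : ℤ⟦X⟧, constantCoeff (r a) = constantCoeff a := by
    intro a
    rw [← coeff_zero_eq_constantCoeff_apply, hr, coeff_rescale]
    simp
  obtain ⟨x', s, hx', hs, hxy', hth'⟩ := velu3 (x := r x) (y := r y) (f := r f1)
    (by rw [hr0, hx]) (by
      have h := congrArg r hxy
      simp only [map_sub, map_mul, map_pow, map_ofNat, hrX] at h
      rw [h]
      ring) (by
      have h := congrArg r hth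
      simp only [map_sub, map_mul, map_neg, map_ofNat] at h
      rw [hr, rescale_th, ← hr, h])
  have h := cartier_app (x := x') (y := r y * s) (-100) (-260000) 176140625
    (by rw [map_mul, hr0, hy, hs]; rfl)
    (by rw [hr0, h1]) (by rw [hxy']; push_cast; ring) hth' p hp2
  rw [← h]
  have hp : p.Prime := Fact.out
  obtain ⟨m, rfl⟩ : ∃ m, p = m + 1 := ⟨p - 1, by have := hp.two_le; omega⟩
  rw [coeff_succ_X_mul, coeff_succ_X_mul, hr, coeff_rescale]
  push_cast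
  have h5 : ((5 : ZMod (m + 1))) ≠ 0 := by
    intro h0
    have h1 : ((5 : ℕ) : ZMod (m + 1)) = 0 := by exact_mod_cast h0
    rw [ZMod.natCast_eq_zero_iff] at h1
    exact hp5 ((Nat.prime_dvd_prime_iff_eq hp (by norm_num)).1 h1)
  have h6 := ZMod.pow_card_sub_one_eq_one h5
  simp only [Nat.add_sub_cancel] at h6
  rw [h6, one_mul]

end Vale.Agent.P004H.H204
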