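import Vale.Agent.P004H.H204.E5

/-!
# P004H (H204): the quartic identity, formal part: vanishing to order 7
-/

open PowerSeries

namespace Vale.Agent.P004H.H204

/-- left side minus right side of the quartic identity -/
noncomputable def DD {R : Type*} [CommRing R] (f E : R⟦X⟧) : R⟦X⟧ :=
  25 * (E * th f - f * th E) ^ 2 -
    f ^ 2 * (E ^ 4 - 68 * E ^ 3 * f - 616 * E ^ 2 * f ^ 2 - 252 * E * f ^ 3 - 1504 * f ^ 4)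

theorem quartic_iff {f E : ℤ⟦X⟧} : Quartic f E ↔ DD f E = 0 := by
  unfold Quartic DD
  rw [sub_eq_zero]

theorem DD_dvd {f1 E g h : ℤ⟦X⟧}
    (hf : f1 = 1 - 2 * X - X ^ 2 + 2 * X ^ 3 + X ^ 4 + X ^ 5 * g)
    (hE : E = 5 + 12 * X + 36 * X ^ 2 + 48 * X ^ 3 + 84 * X ^ 4 + X ^ 5 * h) :
    ∃ R : ℤ⟦X⟧, DD (X * f1) E = X ^ 7 * R := by
  have hp2 : th ((X : ℤ⟦X⟧) ^ 2) = 2 * X ^ 2 := by rw [pow_two, th_mul, th_X]; ring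
  have hp3 : th ((X : ℤ⟦X⟧) ^ 3) = 3 * X ^ 3 := by rw [pow_succ, th_mul, hp2, th_X]; ring
  have hp4 : th ((X : ℤ⟦X⟧) ^ 4) = 4 * X ^ 4 := by rw [pow_succ, th_mul, hp3, th_X]; ring
  have hp5 : th ((X : ℤ⟦X⟧) ^ 5) = 5 * X ^ 5 := by rw [pow_succ, th_mul, hp4, th_X]; ring
  have hc : ∀ n : ℕ, th ((n : ℤ⟦X⟧)) = 0 := fun n => th_nat n
  have hc1 : th (1 : ℤ⟦X⟧) = 0 := by simp
  have hc2 : th (2 : ℤ⟦X⟧) = 0 := by simpa using hc 2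
  have hc5 : th (5 : ℤ⟦X⟧) = 0 := by simpa using hc 5
  have hc12 : th (12 : ℤ⟦X⟧) = 0 := by simpa using hc 12
  have hc36 : th (36 : ℤ⟦X⟧) = 0 := by simpa using hc 36
  have hc48 : th (48 : ℤ⟦X⟧) = 0 := by simpa using hc 48
  have hc84 : th (84 : ℤ⟦X⟧) = 0 := by simpa using hc 84
  obtain ⟨k, hk⟩ : ∃ k : ℤ⟦X⟧, th (X * f1) =
      X * (1 - 4 * X - 3 * X ^ 2 + 8 * X ^ 3 + 5 * X ^ 4 + X ^ 5 * k) := by
    refine ⟨6 * g + th g, ?_⟩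
    rw [hf]
    simp only [th_mul, map_add, map_sub, hp2, hp3, hp4, hp5, hc1, hc2, th_X]
    ring
  obtain ⟨l, hl⟩ : ∃ l : ℤ⟦X⟧, th E =
      12 * X + 72 * X ^ 2 + 144 * X ^ 3 + 336 * X ^ 4 + X ^ 5 * l := by
    refine ⟨5 * h + th h, ?_⟩
    rw [hE]
    simp only [th_mul, map_add, hp2, hp3, hp4, hp5, hc5, hc12, hc36, hc48, hc84, th_X]
    ring
  obtain ⟨K, hK⟩ : ∃ K : ℤ⟦X⟧,
      K = 1 - 4 * X - 3 * X ^ 2 + 8 * X ^ 3 + 5 * X ^ 4 + X ^ 5 * k := ⟨_, rfl⟩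
  obtain ⟨L, hL⟩ : ∃ L : ℤ⟦X⟧, L = th E := ⟨_, rfl⟩
  rw [← hL] at hl
  have hD : DD (X * f1) E = X ^ 2 * (25 * (E * K - f1 * L) ^ 2 - f1 ^ 2 *
      (E ^ 4 - 68 * X * E ^ 3 * f1 - 616 * X ^ 2 * E ^ 2 * f1 ^ 2 - 252 * X ^ 3 * E * f1 ^ 3 -
        1504 * X ^ 4 * f1 ^ 4)) := by
    unfold DD
    rw [hk, ← hK, ← hL]
    ring
  have hdvd : (X : ℤ⟦X⟧) ^ 5 ∣ 25 * (E * K - f1 * L) ^ 2 - f1 ^ 2 *
      (E ^ 4 - 68 * X * E ^ 3 * f1 - 616 * X ^ 2 * E ^ 2 * f1 ^ 2 - 252 * X ^ 3 * E * f1 ^ 3 -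
        1504 * X ^ 4 * f1 ^ 4) := by
    rw [← Ideal.mem_span_singleton, ← Ideal.Quotient.eq_zero_iff_mem]
    have ht : (Ideal.Quotient.mk (Ideal.span {(X : ℤ⟦X⟧) ^ 5}) X) ^ 5 = 0 := by
      rw [← map_pow, Ideal.Quotient.eq_zero_iff_mem]
      exact Ideal.mem_span_singleton_self _
    have h1 := congrArg (Ideal.Quotient.mk (Ideal.span {(X : ℤ⟦X⟧) ^ 5})) hf
    have h2 := congrArg (Ideal.Quotient.mk (Ideal.span {(X : ℤ⟦X⟧) ^ 5})) hE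
    have h3 := congrArg (Ideal.Quotient.mk (Ideal.span {(X : ℤ⟦X⟧) ^ 5})) hK
    have h4 := congrArg (Ideal.Quotient.mk (Ideal.span {(X : ℤ⟦X⟧) ^ 5})) hl
    simp only [map_add, map_sub, map_mul, map_pow, map_one, map_ofNat] at h1 h2 h3 h4 ⊢
    generalize Ideal.Quotient.mk (Ideal.span {(X : ℤ⟦X⟧) ^ 5}) X = t at *
    rw [ht, zero_mul, add_zero] at h1 h2 h3 h4
    rw [h1, h2, h3, h4]
    linear_combination (
      (95500) * t ^ 0 + (-383000) * t ^ 1 + (-1479500) * t ^ 2 + (2641000) * t ^ 3 +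
      (9624000) * t ^ 4 + (12731000) * t ^ 5 + (6610800) * t ^ 6 +
      (-47651000) * t ^ 7 + (-125274800) * t ^ 8 + (-193597000) * t ^ 9 +
      (96420060) * t ^ 10 + (234855600) * t ^ 11 + (525590600) * t ^ 12 +
      (1189903480) * t ^ 13 + (160195780) * t ^ 14 + (-1900413096) * t ^ 15 +
      (-1787525676) * t ^ 16 + (-65553592) * t ^ 17 + (697214892) * t ^ 18 +
      (393945840) * t ^ 19 + (81046528) * t ^ 20 + (4651488) * t ^ 21 +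
      (39216) * t ^ 22 + (1504) * t ^ 23) * ht
  obtain ⟨R, hR⟩ := hdvd
  refine ⟨R, ?_⟩
  rw [hD, hR]
  ring

end Vale.Agent.P004H.H204
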