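import Vale.Agent.P004H.H204.Ord

/-!
# P004H (H204): the quartic identity for `F = eta(z)^2 eta(11z)^2` and `E5`
-/

open Complex Filter Topology
open UpperHalfPlane hiding I
open scoped Real MatrixGroups ModularForm Manifold

namespace Vale.Agent.P004H.H204

open H792 (Fc Fc_mob Fc_W Fc_ne Fc_diff im11 im_div11 den_ne' im_S im_ne)

/-- the complex power series with coefficients `c` -/
noncomputable def cs (c : ℕ → ℤ) : PowerSeries ℂ :=
  PowerSeries.map (Int.castRingHom ℂ) (PowerSeries.mk c)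

theorem coeff_cs (c : ℕ → ℤ) (n : ℕ) : PowerSeries.coeff n (cs c) = (c n : ℂ) := by
  simp [cs]

theorem conv_of {p : PowerSeries ℂ}
    (h : ∀ z : ℂ, 0 < z.im → Summable (fun n => PowerSeries.coeff n p * qq z ^ n)) : Conv p := by
  intro r hr hr1
  rcases hr.eq_or_lt with h0 | h0
  · subst h0
    refine summable_of_ne_finset_zero (s := {0}) fun n hn => ?_
    rw [zero_pow (by simpa using hn), mul_zero]
  · have hz : 0 < ((-(Real.log r) / (2 * π) : ℝ) * I : ℂ).im := by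
      have h1 : ((-(Real.log r) / (2 * π) : ℝ) * I : ℂ).im = -(Real.log r) / (2 * π) := by
        rw [Complex.im_ofReal_mul, Complex.I_im, mul_one]
      rw [h1]
      have := Real.log_neg h0 hr1
      have := Real.pi_pos
      exact div_pos (by linarith) (by positivity)
    have h2 := (h _ hz).norm
    refine h2.congr fun n => ?_
    have h3 : ‖qq ((-(Real.log r) / (2 * π) : ℝ) * I : ℂ)‖ = r := by
      rw [norm_qq]
      have h1 : ((-(Real.log r) / (2 * π) : ℝ) * I : ℂ).im = -(Real.log r) / (2 * π) := by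
        rw [Complex.im_ofReal_mul, Complex.I_im, mul_one]
      rw [h1]
      have hpi := Real.pi_ne_zero
      rw [show -(2 * π * (-Real.log r / (2 * π))) = Real.log r by field_simp, Real.exp_log h0]
    rw [norm_mul, norm_pow, h3]

/-- comparison of derivatives of a function invariant under `φ` -/
theorem deriv_inv {u φ : ℂ → ℂ} {z φ' A B : ℂ} (hφ : HasDerivAt φ φ' z)
    (hu : HasDerivAt u A (φ z)) (hu2 : HasDerivAt u B z) (heq : ∀ᶠ w in 𝓝 z, u (φ w) = u w) :
    A * φ' = B := by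
  have h1 : HasDerivAt (fun w => u (φ w)) (A * φ') z := hu.comp z hφ
  have h2 : HasDerivAt (fun w => u (φ w)) B z := hu2.congr_of_eventuallyEq heq
  exact h1.unique h2

theorem eventually_im {z : ℂ} (hz : 0 < z.im) : ∀ᶠ w in 𝓝 z, 0 < w.im :=
  (isOpen_lt continuous_const Complex.continuous_im).mem_nhds hz

/-- the data of the `q`-expansion of `F` -/
structure QF (a : ℕ → ℤ) : Prop where
  sum : ∀ z : ℂ, 0 < z.im → HasSum (fun n => (a n : ℂ) * qq z ^ n) (Fc z)

section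

variable {a : ℕ → ℤ}

theorem QF.conv (h : QF a) : Conv (cs a) :=
  conv_of fun z hz => by simpa [coeff_cs] using (h.sum z hz).summable

theorem convE : Conv (cs cE) :=
  conv_of fun z hz => by simpa [coeff_cs] using (hasSum_e5 hz).summable

theorem QF.eq (h : QF a) {z : ℂ} (hz : 0 < z.im) : Fc z = ev (cs a) (qq z) := by
  unfold ev
  simp only [coeff_cs]
  exact (h.sum z hz).tsum_eq.symm

theorem e5_eq {z : ℂ} (hz : 0 < z.im) : e5 z = ev (cs cE) (qq z) := by
  unfold ev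
  simp only [coeff_cs]
  exact (hasSum_e5 hz).tsum_eq.symm

theorem QF.deriv (h : QF a) {z : ℂ} (hz : 0 < z.im) :
    HasDerivAt Fc (2 * π * I * ev (th (cs a)) (qq z)) z :=
  (h.conv.hasDerivAt hz).congr_of_eventuallyEq
    ((eventually_im hz).mono fun _ hw => h.eq hw)

theorem e5_deriv {z : ℂ} (hz : 0 < z.im) :
    HasDerivAt e5 (2 * π * I * ev (th (cs cE)) (qq z)) z :=
  (convE.hasDerivAt hz).congr_of_eventuallyEq
    ((eventually_im hz).mono fun _ hw => e5_eq hw)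

/-- `E5 / F` -/
noncomputable def uu (z : ℂ) : ℂ := e5 z / Fc z

/-- `q u' / F` -/
noncomputable def vv (a : ℕ → ℤ) (z : ℂ) : ℂ :=
  (ev (th (cs cE)) (qq z) * Fc z - e5 z * ev (th (cs a)) (qq z)) / Fc z ^ 3

theorem QF.uu_deriv (h : QF a) {z : ℂ} (hz : 0 < z.im) :
    HasDerivAt uu (2 * π * I * vv a z * Fc z) z := by
  have h1 := (e5_deriv hz).div (h.deriv hz) (Fc_ne hz)
  refine h1.congr_deriv ?_
  have h0 := Fc_ne hz
  unfold vv
  field_simp

theorem mob_im {a b c d : ℤ} (h : a * d - b * c = 1) {z : ℂ} (hz : 0 < z.im) :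
    0 < ((a * z + b) / (c * z + d)).im := by
  obtain ⟨g, g00, g01, g10, g11⟩ : ∃ g : SL(2, ℤ), g 0 0 = a ∧ g 0 1 = b ∧ g 1 0 = c ∧
      g 1 1 = d :=
    ⟨⟨!![a, b; c, d], by rw [Matrix.det_fin_two_of]; exact h⟩, by simp, by simp, by simp,
      by simp⟩
  have h2 : ((g • (⟨z, hz⟩ : ℍ) : ℍ) : ℂ) = (a * z + b) / (c * z + d) := by
    rw [UpperHalfPlane.specialLinearGroup_apply]
    simp [g00, g01, g10, g11]
  rw [← h2]
  exact (g • (⟨z, hz⟩ : ℍ)).2

theorem mob_deriv {a b c d : ℤ} (h : a * d - b * c = 1) {z : ℂ} (hz : 0 < z.im) :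
    HasDerivAt (fun w : ℂ => (a * w + b) / (c * w + d)) (1 / (c * z + d) ^ 2) z := by
  have h0 := den_ne' h hz
  have h1 : HasDerivAt (fun w : ℂ => (a : ℂ) * w + b) a z := by
    simpa using ((hasDerivAt_id z).const_mul (a : ℂ)).add_const (b : ℂ)
  have h2 : HasDerivAt (fun w : ℂ => (c : ℂ) * w + d) c z := by
    simpa using ((hasDerivAt_id z).const_mul (c : ℂ)).add_const (d : ℂ)
  refine (h1.div h2 h0).congr_deriv ?_
  congr 1
  have h' : (a : ℂ) * d - b * c = 1 := by exact_mod_cast h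
  linear_combination h'

theorem uu_mob {a b c d : ℤ} (h : a * d - b * (11 * c) = 1) {z : ℂ} (hz : 0 < z.im) :
    uu ((a * z + b) / ((11 * c : ℤ) * z + d)) = uu z := by
  have h0 := den_ne' h hz
  have h1 := Fc_ne hz
  unfold uu
  rw [Fc_mob h hz, e5_mob h hz]
  field_simp

theorem uu_W {z : ℂ} (hz : 0 < z.im) : uu (-1 / (11 * z)) = uu z := by
  have h0 := im_ne hz
  have h1 := Fc_ne hz
  unfold uu
  rw [Fc_W hz, e5_W hz]
  field_simp

theorem QF.vv_mob (hq : QF a) {x b c d : ℤ} (h : x * d - b * (11 * c) = 1) {z : ℂ}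
    (hz : 0 < z.im) : vv a ((x * z + b) / ((11 * c : ℤ) * z + d)) = vv a z := by
  have h0 := den_ne' h hz
  have h1 := Fc_ne hz
  have h2 := deriv_inv (mob_deriv h hz) (hq.uu_deriv (mob_im h hz)) (hq.uu_deriv hz)
    ((eventually_im hz).mono fun w hw => uu_mob h hw)
  rw [Fc_mob h hz] at h2
  have hpi : (2 * π * I : ℂ) ≠ 0 := by
    simp [Real.pi_ne_zero]
  have hj : (((11 * c : ℤ) : ℂ) * z + d) ^ 2 * (1 / (((11 * c : ℤ) : ℂ) * z + d) ^ 2) = 1 :=
    mul_one_div_cancel (pow_ne_zero 2 h0)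
  have h3 : 2 * π * I * Fc z * vv a ((x * z + b) / ((11 * c : ℤ) * z + d)) =
      2 * π * I * Fc z * vv a z := by
    linear_combination h2 -
      (2 * π * I * Fc z * vv a ((x * z + b) / ((11 * c : ℤ) * z + d))) * hj
  exact mul_left_cancel₀ (mul_ne_zero hpi h1) h3

theorem QF.vv_W (hq : QF a) {z : ℂ} (hz : 0 < z.im) : vv a (-1 / (11 * z)) = -vv a z := by
  have h0 := im_ne hz
  have h1 := Fc_ne hz
  have hd : HasDerivAt (fun w : ℂ => -1 / (11 * w)) (1 / (11 * z ^ 2)) z := by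
    have h4 : HasDerivAt (fun w : ℂ => 11 * w) 11 z := by
      simpa using (hasDerivAt_id z).const_mul (11 : ℂ)
    have h5 := (hasDerivAt_const z (-1 : ℂ)).div h4 (mul_ne_zero (by norm_num) h0)
    refine h5.congr_deriv ?_
    field_simp
    ring
  have him : 0 < (-1 / (11 * z)).im := im_S (im11 hz)
  have h2 := deriv_inv hd (hq.uu_deriv him) (hq.uu_deriv hz)
    ((eventually_im hz).mono fun w hw => uu_W hw)
  rw [Fc_W hz] at h2
  have hpi : (2 * π * I : ℂ) ≠ 0 := by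
    simp [Real.pi_ne_zero]
  have h3 : 2 * π * I * Fc z * vv a (-1 / (11 * z)) = 2 * π * I * Fc z * -vv a z := by
    rw [show 2 * π * I * Fc z * -vv a z = -(2 * π * I * vv a z * Fc z) by ring, ← h2]
    field_simp
  exact mul_left_cancel₀ (mul_ne_zero hpi h1) h3

/-- the function which has to vanish -/
noncomputable def gg (a : ℕ → ℤ) (z : ℂ) : ℂ :=
  25 * vv a z ^ 2 - (uu z ^ 4 - 68 * uu z ^ 3 - 616 * uu z ^ 2 - 252 * uu z - 1504)

theorem QF.gg_mob (hq : QF a) {x b c d : ℤ} (h : x * d - b * (11 * c) = 1) {z : ℂ}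
    (hz : 0 < z.im) : gg a ((x * z + b) / ((11 * c : ℤ) * z + d)) = gg a z := by
  unfold gg
  rw [hq.vv_mob h hz, uu_mob h hz]

theorem QF.gg_W (hq : QF a) {z : ℂ} (hz : 0 < z.im) : gg a (-1 / (11 * z)) = gg a z := by
  unfold gg
  rw [hq.vv_W hz, uu_W hz]
  ring

theorem QF.gg_diff (hq : QF a) {z : ℂ} (hz : 0 < z.im) : DifferentiableAt ℂ (gg a) z := by
  have h1 : DifferentiableAt ℂ uu z := (hq.uu_deriv hz).differentiableAt
  have h2 : DifferentiableAt ℂ (fun w => ev (th (cs cE)) (qq w)) z :=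
    ((conv_th convE).hasDerivAt hz).differentiableAt
  have h3 : DifferentiableAt ℂ (fun w => ev (th (cs a)) (qq w)) z :=
    ((conv_th hq.conv).hasDerivAt hz).differentiableAt
  have h4 : DifferentiableAt ℂ (vv a) z := by
    unfold vv
    exact ((h2.mul (Fc_diff hz)).sub ((e5_deriv hz).differentiableAt.mul h3)).div
      ((Fc_diff hz).pow 3) (pow_ne_zero 3 (Fc_ne hz))
  unfold gg
  fun_prop

theorem QF.convD (hq : QF a) : Conv (DD (cs a) (cs cE)) := by
  have e : cs cE ∈ CR := convE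
  have f : cs a ∈ CR := hq.conv
  have te : th (cs cE) ∈ CR := conv_th convE
  have tf : th (cs a) ∈ CR := conv_th hq.conv
  rw [← mem_CR]
  unfold DD
  exact sub_mem (mul_mem (ofNat_mem CR 25) (pow_mem (sub_mem (mul_mem e tf) (mul_mem f te)) 2))
    (mul_mem (pow_mem f 2) (sub_mem (sub_mem (sub_mem (sub_mem (pow_mem e 4)
      (mul_mem (mul_mem (ofNat_mem CR 68) (pow_mem e 3)) f))
      (mul_mem (mul_mem (ofNat_mem CR 616) (pow_mem e 2)) (pow_mem f 2)))
      (mul_mem (mul_mem (ofNat_mem CR 252) e) (pow_mem f 3)))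
      (mul_mem (ofNat_mem CR 1504) (pow_mem f 4))))

/-- as a quotient of power series -/
theorem QF.gg_eq (hq : QF a) {z : ℂ} (hz : 0 < z.im) :
    gg a z * ev (cs a) (qq z) ^ 6 = ev (DD (cs a) (cs cE)) (qq z) := by
  have hq1 := norm_qq_lt hz
  have h1 : ev (DD (cs a) (cs cE)) (qq z) =
      25 * (e5 z * ev (th (cs a)) (qq z) - Fc z * ev (th (cs cE)) (qq z)) ^ 2 -
      Fc z ^ 2 * (e5 z ^ 4 - 68 * e5 z ^ 3 * Fc z - 616 * e5 z ^ 2 * Fc z ^ 2 -
        252 * e5 z * Fc z ^ 3 - 1504 * Fc z ^ 4) := by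
    rw [hq.eq hz, e5_eq hz]
    have h2 := congrArg (evH (qq z) hq1) (show (⟨DD (cs a) (cs cE), hq.convD⟩ : CR) =
      25 * (⟨cs cE, convE⟩ * ⟨th (cs a), conv_th hq.conv⟩ -
        ⟨cs a, hq.conv⟩ * ⟨th (cs cE), conv_th convE⟩) ^ 2 -
      ⟨cs a, hq.conv⟩ ^ 2 * (⟨cs cE, convE⟩ ^ 4 - 68 * ⟨cs cE, convE⟩ ^ 3 * ⟨cs a, hq.conv⟩ -
        616 * ⟨cs cE, convE⟩ ^ 2 * ⟨cs a, hq.conv⟩ ^ 2 -
        252 * ⟨cs cE, convE⟩ * ⟨cs a, hq.conv⟩ ^ 3 - 1504 * ⟨cs a, hq.conv⟩ ^ 4) from rfl)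
    rw [evH_apply] at h2
    simp only [map_sub, map_mul, map_pow, map_ofNat, evH_apply] at h2
    exact h2
  have h0 := Fc_ne hz
  rw [h1, ← hq.eq hz]
  unfold gg uu vv
  field_simp
  ring

end

end Vale.Agent.P004H.H204
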