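import Vale.Agent.P004H.H204.Cnt
import Vale.Agent.P004H.H204.Join2
import Vale.Agent.P004H.H742.CoF
import Vale.Agent.P004H.H666.HasseC

/-!
# P004H (H204): the traces of `11a2` and `11a3` are those of `eta(z)^2 eta(11z)^2`
-/

namespace Vale.Agent.P004H.H204

open P004G P004G.ML H742

/-- the number of affine points of `y² + y = x³ - x² + c x + d` over `ℤ / p` -/
noncomputable def cntg (c d : ℤ) (p : ℕ) : ℕ :=
  Nat.card {q : ZMod p × ZMod p // q.2 ^ 2 + q.2 = q.1 ^ 3 - q.1 ^ 2 + c * q.1 + d}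

theorem cntg_two_eq (p : ℕ) : cntg (-7820) (-263580) p = cnt2 p := by
  unfold cntg cnt2
  refine Nat.card_congr (Equiv.subtypeEquivRight ?_)
  intro q
  push_cast
  rw [show q.1 ^ 3 - q.1 ^ 2 + -7820 * q.1 + -263580 =
    q.1 ^ 3 - q.1 ^ 2 - 7820 * q.1 - 263580 by ring]

theorem cntg_three_eq (p : ℕ) : cntg 0 0 p = cnt3 p := by
  unfold cntg cnt3
  refine Nat.card_congr (Equiv.subtypeEquivRight ?_)
  intro q
  push_cast
  rw [show q.1 ^ 3 - q.1 ^ 2 + 0 * q.1 + 0 = q.1 ^ 3 - q.1 ^ 2 by ring]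

/-- the number of points as a character sum -/
lemma cntg_char (c d : ℤ) {p : ℕ} [Fact p.Prime] (hp2 : p ≠ 2) : (p : ℤ) - cntg c d p =
    -∑ t : ZMod p, quadraticChar (ZMod p) (4 * t ^ 3 - 4 * t ^ 2 + 4 * c * t + (4 * d + 1)) := by
  have hp : p.Prime := Fact.out
  have hchar : ringChar (ZMod p) ≠ 2 := by
    rw [ZMod.ringChar_zmod_n]
    exact hp2
  have h2 : (2 : ZMod p) ≠ 0 := by
    intro h
    have h1 : ((2 : ℕ) : ZMod p) = 0 := by exact_mod_cast h
    rw [ZMod.natCast_eq_zero_iff] at h1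
    exact hp2 ((Nat.prime_dvd_prime_iff_eq hp Nat.prime_two).1 h1)
  have e1 : cntg c d p = ∑ x : ZMod p,
      ({y : ZMod p | y ^ 2 = 4 * x ^ 3 - 4 * x ^ 2 + 4 * c * x + (4 * d + 1)}.toFinset).card := by
    unfold cntg
    rw [Nat.card_eq_fintype_card, Fintype.card_subtype, ← Finset.card_sigma]
    refine Finset.card_bij (fun q _ => ⟨q.1, 2 * q.2 + 1⟩) ?_ ?_ ?_
    · intro q hq
      simp only [Finset.mem_filter, Finset.mem_univ, true_and] at hq
      simp only [Finset.mem_sigma, Finset.mem_univ, Set.mem_toFinset, Set.mem_ofPred_eq, true_and]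
      linear_combination 4 * hq
    · rintro ⟨x, y⟩ _ ⟨x', y'⟩ _ h
      simp only [Sigma.mk.injEq, heq_eq_eq] at h
      rw [h.1]
      have : y = y' := mul_left_cancel₀ h2 (by linear_combination h.2)
      rw [this]
    · rintro ⟨x, y⟩ hq
      simp only [Finset.mem_sigma, Finset.mem_univ, Set.mem_toFinset, Set.mem_ofPred_eq,
        true_and] at hq
      have e : 2 * ((y - 1) / 2) = y - 1 := by field_simp
      refine ⟨(x, (y - 1) / 2), ?_, ?_⟩
      · simp only [Finset.mem_filter, Finset.mem_univ, true_and]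
        have h4 : (4 : ZMod p) ≠ 0 := by
          have : (4 : ZMod p) = 2 ^ 2 := by norm_num
          rw [this]
          exact pow_ne_zero 2 h2
        apply mul_left_cancel₀ h4
        linear_combination hq + (2 * ((y - 1) / 2) + y + 1) * e
      · simp only [Sigma.mk.injEq, heq_eq_eq, true_and]
        rw [e]
        ring
  have e2 : ((∑ x : ZMod p,
      ({y : ZMod p | y ^ 2 = 4 * x ^ 3 - 4 * x ^ 2 + 4 * c * x + (4 * d + 1)}.toFinset).card : ℕ) :
        ℤ) = ∑ x : ZMod p,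
      (quadraticChar (ZMod p) (4 * x ^ 3 - 4 * x ^ 2 + 4 * c * x + (4 * d + 1)) + 1) := by
    push_cast
    refine Finset.sum_congr rfl fun x _ => ?_
    exact quadraticChar_card_sqrts hchar _
  rw [e1, e2, Finset.sum_add_distrib]
  simp [ZMod.card]

/-- the Hasse bound -/
theorem hasse_cntg (c d : ℤ) {p : ℕ} (hp : p.Prime) (h5 : 5 ≤ p)
    (hD : (4 * ((1296 * c - 432 : ℤ) : ZMod p) ^ 3 +
      27 * ((46656 * d + 15552 * c + 8208 : ℤ) : ZMod p) ^ 2) ≠ 0) :
    ((p : ℤ) - cntg c d p) ^ 2 ≤ 4 * p := by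
  have : Fact p.Prime := ⟨hp⟩
  have hchar : ringChar (ZMod p) ≠ 2 := by
    rw [ZMod.ringChar_zmod_n]; omega
  have hd2 : ¬ p ∣ 2 := fun h => by have := Nat.le_of_dvd (by norm_num) h; omega
  have hd3 : ¬ p ∣ 3 := fun h => by have := Nat.le_of_dvd (by norm_num) h; omega
  have h2 := H666.cast_ne hd2
  have h3 := H666.cast_ne hd3
  push_cast at h2 h3
  have h36 : (36 : ZMod p) ≠ 0 := by
    have : (36 : ZMod p) = 2 ^ 2 * 3 ^ 2 := by norm_num
    rw [this]
    exact mul_ne_zero (pow_ne_zero _ h2) (pow_ne_zero _ h3)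
  have h108 : (108 : ZMod p) ≠ 0 := by
    have : (108 : ZMod p) = 2 ^ 2 * 3 ^ 3 := by norm_num
    rw [this]
    exact mul_ne_zero (pow_ne_zero _ h2) (pow_ne_zero _ h3)
  rw [cntg_char c d (by omega), neg_sq]
  have e : ∑ t : ZMod p, quadraticChar (ZMod p)
        (4 * t ^ 3 - 4 * t ^ 2 + 4 * c * t + (4 * d + 1)) =
      ∑ x : ZMod p, quadraticChar (ZMod p) (x ^ 3 + ((1296 * c - 432 : ℤ) : ZMod p) * x +
        ((46656 * d + 15552 * c + 8208 : ℤ) : ZMod p)) := by
    refine Fintype.sum_bijective (fun t => 36 * t - 12) ?_ _ _ ?_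
    · refine Finite.injective_iff_bijective.1 fun t s h => mul_left_cancel₀ h36 ?_
      linear_combination h
    · intro t
      have : (36 * t - 12) ^ 3 + ((1296 * c - 432 : ℤ) : ZMod p) * (36 * t - 12) +
          ((46656 * d + 15552 * c + 8208 : ℤ) : ZMod p) =
          108 ^ 2 * (4 * t ^ 3 - 4 * t ^ 2 + 4 * c * t + (4 * d + 1)) := by
        push_cast
        ring
      rw [this, map_mul, quadraticChar_sq_one' h108, one_mul]
  rw [e]
  have := H666.hasse_char hchar hD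
  rwa [ZMod.card] at this

/-- two integers in the Hasse range, congruent modulo `p ≥ 17` -/
theorem eq_of_hasse {p : ℕ} (h17 : 17 ≤ p) {A B : ℤ} (hA : A ^ 2 ≤ 4 * p) (hB : B ^ 2 ≤ 4 * p)
    (h : (p : ℤ) ∣ A - B) : A = B := by
  obtain ⟨k, hk⟩ := h
  by_contra hne
  have hk0 : k ≠ 0 := by
    rintro rfl
    apply hne
    linarith
  have h1 : (1 : ℤ) ≤ k ^ 2 := by
    have := sq_nonneg k
    have h2 : k ^ 2 ≠ 0 := pow_ne_zero 2 hk0
    omega
  have h3 : (A - B) ^ 2 ≤ 16 * p := by nlinarith [sq_nonneg (A + B)]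
  rw [hk] at h3
  have h4 : (p : ℤ) ^ 2 ≤ ((p : ℤ) * k) ^ 2 := by nlinarith [sq_nonneg (p : ℤ)]
  have h5 : (17 : ℤ) ≤ p := by exact_mod_cast h17
  nlinarith

theorem a_hasse {p : ℕ} (hp : p.Prime) (h5 : 5 ≤ p) (h11 : p ≠ 11) :
    (H792.a p) ^ 2 ≤ 4 * p := by
  rw [coF.tr p hp h11]
  exact H666.hasse_cnt p hp h5 h11

theorem card_two : cnt2 2 = 4 ∧ cnt2 3 = 4 ∧ cnt2 5 = 4 ∧ cnt2 7 = 9 ∧ cnt2 13 = 9 := by
  unfold cnt2
  refine ⟨?_, ?_, ?_, ?_, ?_⟩ <;> rw [Nat.card_eq_fintype_card] <;> decide +kernel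

theorem card_three : cnt3 2 = 4 ∧ cnt3 3 = 4 ∧ cnt3 5 = 4 ∧ cnt3 7 = 9 ∧ cnt3 13 = 9 := by
  unfold cnt3
  refine ⟨?_, ?_, ?_, ?_, ?_⟩ <;> rw [Nat.card_eq_fintype_card] <;> decide +kernel

theorem card_one : cnt 2 = 4 ∧ cnt 3 = 4 ∧ cnt 5 = 4 ∧ cnt 7 = 9 ∧ cnt 13 = 9 := by
  unfold cnt
  refine ⟨?_, ?_, ?_, ?_, ?_⟩ <;> rw [Nat.card_eq_fintype_card] <;> decide +kernel

theorem small_primes {p : ℕ} (hp : p.Prime) (h11 : p ≠ 11) :
    p = 2 ∨ p = 3 ∨ p = 5 ∨ p = 7 ∨ p = 13 ∨ 17 ≤ p := by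
  by_contra h
  push Not at h
  obtain ⟨h2, h3, h5, h7, h13, h17⟩ := h
  interval_cases p <;> first | omega | (exact absurd hp (by norm_num))

theorem hf1 : PowerSeries.constantCoeff (PowerSeries.mk (fun n => H792.a (n + 1))) = 1 := by
  rw [← PowerSeries.coeff_zero_eq_constantCoeff_apply, PowerSeries.coeff_mk]
  exact H792.a_one

theorem eleven_ne {p : ℕ} (hp : p.Prime) (h11 : p ≠ 11) : (11 : ZMod p) ≠ 0 := by
  intro h0
  have h1 : ((11 : ℕ) : ZMod p) = 0 := by exact_mod_cast h0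
  rw [ZMod.natCast_eq_zero_iff] at h1
  exact h11 ((Nat.prime_dvd_prime_iff_eq hp (by norm_num)).1 h1)

/-- **`11a2`** -/
theorem tr2 {p : ℕ} (hp : p.Prime) (h11 : p ≠ 11) : H792.a p = p - cnt2 p := by
  obtain ⟨a1, a2, a3, a4, a5⟩ := card_one
  obtain ⟨b1, b2, b3, b4, b5⟩ := card_two
  have htr := coF.tr p hp h11
  rcases small_primes hp h11 with rfl | rfl | rfl | rfl | rfl | h17
  · rw [htr, a1, b1]
  · rw [htr, a2, b2]
  · rw [htr, a3, b3]
  · rw [htr, a4, b4]
  · rw [htr, a5, b5]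
  · have : Fact p.Prime := ⟨hp⟩
    have h2 : ((2 : ℕ) : ZMod p) ≠ 0 :=
      H666.cast_ne fun h => by have := Nat.le_of_dvd (by norm_num) h; omega
    have h3 : ((3 : ℕ) : ZMod p) ≠ 0 :=
      H666.cast_ne fun h => by have := Nat.le_of_dvd (by norm_num) h; omega
    have h11' := eleven_ne hp h11
    push_cast at h2 h3
    rw [← cntg_two_eq]
    refine eq_of_hasse h17 (a_hasse hp (by omega) h11)
      (hasse_cntg (-7820) (-263580) hp (by omega) ?_) ?_
    · have e : (4 * ((1296 * (-7820) - 432 : ℤ) : ZMod p) ^ 3 +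
          27 * ((46656 * (-263580) + 15552 * (-7820) + 8208 : ℤ) : ZMod p) ^ 2) =
          2 ^ 8 * 3 ^ 12 * 11 := by
        push_cast
        norm_num
      rw [e]
      exact mul_ne_zero (mul_ne_zero (pow_ne_zero _ h2) (pow_ne_zero _ h3)) h11'
    · have hQ := quartic
      rw [mk_a] at hQ
      have h := join2 hf1 const_Sz hQ p (by omega)
      rw [← mk_a, PowerSeries.coeff_mk] at h
      rw [← ZMod.intCast_zmod_eq_zero_iff_dvd _ p, Int.cast_sub, h, cntg_char _ _ (by omega)]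
      push_cast
      rw [sub_neg_eq_add, neg_add_eq_zero]
      refine Finset.sum_congr rfl fun t _ => ?_
      congr 2
      ring

/-- **`11a3`** -/
theorem tr3 {p : ℕ} (hp : p.Prime) (h11 : p ≠ 11) : H792.a p = p - cnt3 p := by
  obtain ⟨a1, a2, a3, a4, a5⟩ := card_one
  obtain ⟨b1, b2, b3, b4, b5⟩ := card_three
  have htr := coF.tr p hp h11
  rcases small_primes hp h11 with rfl | rfl | rfl | rfl | rfl | h17
  · rw [htr, a1, b1]
  · rw [htr, a2, b2]
  · rw [htr, a3, b3]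
  · rw [htr, a4, b4]
  · rw [htr, a5, b5]
  · have : Fact p.Prime := ⟨hp⟩
    have h2 : ((2 : ℕ) : ZMod p) ≠ 0 :=
      H666.cast_ne fun h => by have := Nat.le_of_dvd (by norm_num) h; omega
    have h3 : ((3 : ℕ) : ZMod p) ≠ 0 :=
      H666.cast_ne fun h => by have := Nat.le_of_dvd (by norm_num) h; omega
    have h5 : ((5 : ℕ) : ZMod p) ≠ 0 :=
      H666.cast_ne fun h => by have := Nat.le_of_dvd (by norm_num) h; omega
    have h11' := eleven_ne hp h11
    push_cast at h2 h3 h5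
    rw [← cntg_three_eq]
    refine eq_of_hasse h17 (a_hasse hp (by omega) h11) (hasse_cntg 0 0 hp (by omega) ?_) ?_
    · have e : (4 * ((1296 * 0 - 432 : ℤ) : ZMod p) ^ 3 +
          27 * ((46656 * 0 + 15552 * 0 + 8208 : ℤ) : ZMod p) ^ 2) =
          2 ^ 8 * 3 ^ 12 * 11 := by
        push_cast
        norm_num
      rw [e]
      exact mul_ne_zero (mul_ne_zero (pow_ne_zero _ h2) (pow_ne_zero _ h3)) h11'
    · have hQ := quartic
      rw [mk_a] at hQ
      have h := join3 hf1 const_Sz hQ p (by omega) (by omega)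
      rw [← mk_a, PowerSeries.coeff_mk] at h
      rw [← ZMod.intCast_zmod_eq_zero_iff_dvd _ p, Int.cast_sub, h, cntg_char _ _ (by omega)]
      push_cast
      rw [sub_neg_eq_add, neg_add_eq_zero]
      have h625 : (625 : ZMod p) ≠ 0 := by
        rw [show (625 : ZMod p) = 5 ^ 4 by norm_num]
        exact pow_ne_zero _ h5
      have h56 : (5 ^ 6 : ZMod p) ≠ 0 := pow_ne_zero _ h5
      symm
      refine Fintype.sum_bijective (fun t => 625 * t - 200) ?_ _ _ ?_
      · refine Finite.injective_iff_bijective.1 fun t s h => mul_left_cancel₀ h625 ?_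
        linear_combination h
      · intro t
        have e : (4 * (625 * t - 200) ^ 3 + -100 * (625 * t - 200) ^ 2 +
            2 * -260000 * (625 * t - 200) + 176140625 : ZMod p) =
            (5 ^ 6) ^ 2 * (4 * t ^ 3 - 4 * t ^ 2 + 4 * 0 * t + (4 * 0 + 1)) := by
          ring
        rw [e, map_mul, quadraticChar_sq_one' h56, one_mul]

end Vale.Agent.P004H.H204
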