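import Vale.Agent.P004H.H204.Formal

/-!
# P004H (H204): the normalised 5-isogenies from `11a1` on the level of the parametrisation
-/

open PowerSeries

namespace Vale.Agent.P004H.H204

theorem th_ofNat (n : ℕ) [n.AtLeastTwo] : th (OfNat.ofNat n : ℤ⟦X⟧) = 0 := th_nat n

/-- the isogeny `11a1 → 11a2` -/
theorem velu2 {x y f : ℤ⟦X⟧} (hx : constantCoeff x = 1)
    (hy : y ^ 2 = 4 * x ^ 3 + (-4) * X ^ 2 * x ^ 2 + (-40) * X ^ 4 * x + (-79) * X ^ 6)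
    (hth : th x - 2 * x = -(y * f)) :
    ∃ x' s : ℤ⟦X⟧, constantCoeff x' = 1 ∧ constantCoeff s = 1 ∧
      (y * s) ^ 2 = 4 * x' ^ 3 + (-4) * X ^ 2 * x' ^ 2 + (-31280) * X ^ 4 * x' + (-1054319) * X ^ 6 ∧
      th x' - 2 * x' = -(y * s * f) := by
  obtain ⟨h, hh⟩ : ∃ h : ℤ⟦X⟧, h = x ^ 2 - 21 * x * X ^ 2 + 80 * X ^ 4 := ⟨_, rfl⟩
  obtain ⟨R, hR⟩ : ∃ R : ℤ⟦X⟧, R =
      x ^ 5 - 42 * x ^ 4 * X ^ 2 + 2163 * x ^ 3 * X ^ 4 - 30420 * x ^ 2 * X ^ 6 + 170498 *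
      x * X ^ 8 - 324599 * X ^ 10 := ⟨_, rfl⟩
  obtain ⟨S, hS⟩ : ∃ S : ℤ⟦X⟧, S =
      x ^ 6 - 63 * x ^ 5 * X ^ 2 + x ^ 4 * X ^ 4 + 1977 * x ^ 3 * X ^ 6 + 7626 * x ^ 2 * X
      ^ 8 + 11654 * x * X ^ 10 + 6682 * X ^ 12 := ⟨_, rfl⟩
  have hh1 : constantCoeff h = 1 := by
    rw [hh]
    simp [hx]
  have hR1 : constantCoeff R = 1 := by
    rw [hR]
    simp [hx]
  have hS1 : constantCoeff S = 1 := by
    rw [hS]
    simp [hx]
  obtain ⟨k, hk⟩ : ∃ k : ℤ⟦X⟧, h * k = 1 :=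
    ⟨invOfUnit h 1, mul_invOfUnit h 1 (by simpa using hh1)⟩
  have hk1 : constantCoeff k = 1 := by
    have e := congrArg (constantCoeff (R := ℤ)) hk
    rw [map_mul, hh1, one_mul, map_one] at e
    exact e
  have ident : (y * S) ^ 2 = 4 * R ^ 3 + (-4) * X ^ 2 * R ^ 2 * h ^ 2 +
      (-31280) * X ^ 4 * R * h ^ 4 + (-1054319) * X ^ 6 * h ^ 6 := by
    rw [hS, hR, hh]
    linear_combination (x ^ 6 - 63 * x ^ 5 * X ^ 2 + x ^ 4 * X ^ 4 + 1977 * x ^ 3 * X ^ 6 + 7626 * x ^ 2 * X ^ 8 + 11654 * x * X ^ 10 + 6682 * X ^ 12) ^ 2 * hy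
  have hthx : th x = 2 * x - y * f := by linear_combination hth
  have c21 : th (21 : ℤ⟦X⟧) = 0 := by simpa using th_nat (R := ℤ) 21
  have c42 : th (42 : ℤ⟦X⟧) = 0 := by simpa using th_nat (R := ℤ) 42
  have c80 : th (80 : ℤ⟦X⟧) = 0 := by simpa using th_nat (R := ℤ) 80
  have c2163 : th (2163 : ℤ⟦X⟧) = 0 := by simpa using th_nat (R := ℤ) 2163
  have c30420 : th (30420 : ℤ⟦X⟧) = 0 := by simpa using th_nat (R := ℤ) 30420
  have c170498 : th (170498 : ℤ⟦X⟧) = 0 := by simpa using th_nat (R := ℤ) 170498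
  have c324599 : th (324599 : ℤ⟦X⟧) = 0 := by simpa using th_nat (R := ℤ) 324599
  have hthh : th h = 4 * h - (2 * x - 21 * X ^ 2) * (y * f) := by
    rw [hh]
    simp only [map_add, map_sub, th_mul, Derivation.leibniz_pow, th_X, smul_eq_mul,
      nsmul_eq_mul, c21, c42, c80, c2163, c30420, c170498, c324599, Nat.cast_ofNat, Nat.reduceSub, pow_one, hthx]
    ring
  have hthR : th R = 10 * R - (
      5 * x ^ 4 - 168 * x ^ 3 * X ^ 2 + 6489 * x ^ 2 * X ^ 4 - 60840 * x * X ^ 6 + 170498 *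
      X ^ 8) * (y * f) := by
    rw [hR]
    simp only [map_add, map_sub, th_mul, Derivation.leibniz_pow, th_X, smul_eq_mul,
      nsmul_eq_mul, c21, c42, c80, c2163, c30420, c170498, c324599, Nat.cast_ofNat, Nat.reduceSub, pow_one, hthx]
    ring
  have hthk : th k = -(k ^ 2 * th h) := by
    have e := congrArg (th (R := ℤ)) hk
    rw [th_mul, show th (1 : ℤ⟦X⟧) = 0 by simp] at e
    linear_combination k * e - (th k) * hk
  refine ⟨R * k ^ 2, S * k ^ 3, ?_, ?_, ?_, ?_⟩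
  · rw [map_mul, map_pow, hR1, hk1]
    norm_num
  · rw [map_mul, map_pow, hS1, hk1]
    norm_num
  · have e2 : (h * k) ^ 2 = 1 := by rw [hk, one_pow]
    have e4 : (h * k) ^ 4 = 1 := by rw [hk, one_pow]
    have e6 : (h * k) ^ 6 = 1 := by rw [hk, one_pow]
    linear_combination k ^ 6 * ident + (-4) * X ^ 2 * R ^ 2 * k ^ 4 * e2 +
      (-31280) * X ^ 4 * R * k ^ 2 * e4 + (-1054319) * X ^ 6 * e6
  · have hp2 : th (k ^ 2) = 2 * k * th k := by rw [pow_two, th_mul]; ring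
    have hSx : S = (
      5 * x ^ 4 - 168 * x ^ 3 * X ^ 2 + 6489 * x ^ 2 * X ^ 4 - 60840 * x * X ^ 6 + 170498 *
      X ^ 8) * h - 2 * R * (2 * x - 21 * X ^ 2) := by
      rw [hS, hR, hh]
      ring
    rw [th_mul, hp2, hthk, hthh, hthR]
    linear_combination (-8 * R * k ^ 2 + (
      5 * x ^ 4 - 168 * x ^ 3 * X ^ 2 + 6489 * x ^ 2 * X ^ 4 - 60840 * x * X ^ 6 + 170498 *
      X ^ 8) * k ^ 2 * (y * f)) * hk + y * k ^ 3 * f * hSx

/-- the isogeny `11a1 → 11a3`, everything scaled by 5 -/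
theorem velu3 {x y f : ℤ⟦X⟧} (hx : constantCoeff x = 1)
    (hy : y ^ 2 = 4 * x ^ 3 + (-100) * X ^ 2 * x ^ 2 + (-25000) * X ^ 4 * x + (-1234375) * X ^ 6)
    (hth : th x - 2 * x = -(y * f)) :
    ∃ x' s : ℤ⟦X⟧, constantCoeff x' = 1 ∧ constantCoeff s = 1 ∧
      (y * s) ^ 2 = 4 * x' ^ 3 + (-100) * X ^ 2 * x' ^ 2 + (-520000) * X ^ 4 * x' + (176140625) * X ^ 6 ∧
      th x' - 2 * x' = -(y * s * f) := by
  obtain ⟨h, hh⟩ : ∃ h : ℤ⟦X⟧, h = x ^ 2 + 25 * x * X ^ 2 - 3625 * X ^ 4 := ⟨_, rfl⟩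
  obtain ⟨R, hR⟩ : ∃ R : ℤ⟦X⟧, R =
      x ^ 5 + 50 * x ^ 4 * X ^ 2 + 18125 * x ^ 3 * X ^ 4 - 4925000 * x ^ 2 * X ^ 6 -
      293828125 * x * X ^ 8 - 10196484375 * X ^ 10 := ⟨_, rfl⟩
  obtain ⟨S, hS⟩ : ∃ S : ℤ⟦X⟧, S =
      x ^ 6 + 75 * x ^ 5 * X ^ 2 - 33750 * x ^ 4 * X ^ 4 + 9578125 * x ^ 3 * X ^ 6 +
      684375000 * x ^ 2 * X ^ 8 + 83837890625 * x * X ^ 10 + 1574951171875 * X ^ 12 := ⟨_, rfl⟩
  have hh1 : constantCoeff h = 1 := by
    rw [hh]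
    simp [hx]
  have hR1 : constantCoeff R = 1 := by
    rw [hR]
    simp [hx]
  have hS1 : constantCoeff S = 1 := by
    rw [hS]
    simp [hx]
  obtain ⟨k, hk⟩ : ∃ k : ℤ⟦X⟧, h * k = 1 :=
    ⟨invOfUnit h 1, mul_invOfUnit h 1 (by simpa using hh1)⟩
  have hk1 : constantCoeff k = 1 := by
    have e := congrArg (constantCoeff (R := ℤ)) hk
    rw [map_mul, hh1, one_mul, map_one] at e
    exact e
  have ident : (y * S) ^ 2 = 4 * R ^ 3 + (-100) * X ^ 2 * R ^ 2 * h ^ 2 +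
      (-520000) * X ^ 4 * R * h ^ 4 + (176140625) * X ^ 6 * h ^ 6 := by
    rw [hS, hR, hh]
    linear_combination (x ^ 6 + 75 * x ^ 5 * X ^ 2 - 33750 * x ^ 4 * X ^ 4 + 9578125 * x ^ 3 * X ^ 6 + 684375000 * x ^ 2 * X ^ 8 + 83837890625 * x * X ^ 10 + 1574951171875 * X ^ 12) ^ 2 * hy
  have hthx : th x = 2 * x - y * f := by linear_combination hth
  have c25 : th (25 : ℤ⟦X⟧) = 0 := by simpa using th_nat (R := ℤ) 25
  have c50 : th (50 : ℤ⟦X⟧) = 0 := by simpa using th_nat (R := ℤ) 50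
  have c3625 : th (3625 : ℤ⟦X⟧) = 0 := by simpa using th_nat (R := ℤ) 3625
  have c18125 : th (18125 : ℤ⟦X⟧) = 0 := by simpa using th_nat (R := ℤ) 18125
  have c4925000 : th (4925000 : ℤ⟦X⟧) = 0 := by simpa using th_nat (R := ℤ) 4925000
  have c293828125 : th (293828125 : ℤ⟦X⟧) = 0 := by simpa using th_nat (R := ℤ) 293828125
  have c10196484375 : th (10196484375 : ℤ⟦X⟧) = 0 := by simpa using th_nat (R := ℤ) 10196484375
  have hthh : th h = 4 * h - (2 * x + 25 * X ^ 2) * (y * f) := by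
    rw [hh]
    simp only [map_add, map_sub, th_mul, Derivation.leibniz_pow, th_X, smul_eq_mul,
      nsmul_eq_mul, c25, c50, c3625, c18125, c4925000, c293828125, c10196484375, Nat.cast_ofNat, Nat.reduceSub, pow_one, hthx]
    ring
  have hthR : th R = 10 * R - (
      5 * x ^ 4 + 200 * x ^ 3 * X ^ 2 + 54375 * x ^ 2 * X ^ 4 - 9850000 * x * X ^ 6 -
      293828125 * X ^ 8) * (y * f) := by
    rw [hR]
    simp only [map_add, map_sub, th_mul, Derivation.leibniz_pow, th_X, smul_eq_mul,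
      nsmul_eq_mul, c25, c50, c3625, c18125, c4925000, c293828125, c10196484375, Nat.cast_ofNat, Nat.reduceSub, pow_one, hthx]
    ring
  have hthk : th k = -(k ^ 2 * th h) := by
    have e := congrArg (th (R := ℤ)) hk
    rw [th_mul, show th (1 : ℤ⟦X⟧) = 0 by simp] at e
    linear_combination k * e - (th k) * hk
  refine ⟨R * k ^ 2, S * k ^ 3, ?_, ?_, ?_, ?_⟩
  · rw [map_mul, map_pow, hR1, hk1]
    norm_num
  · rw [map_mul, map_pow, hS1, hk1]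
    norm_num
  · have e2 : (h * k) ^ 2 = 1 := by rw [hk, one_pow]
    have e4 : (h * k) ^ 4 = 1 := by rw [hk, one_pow]
    have e6 : (h * k) ^ 6 = 1 := by rw [hk, one_pow]
    linear_combination k ^ 6 * ident + (-100) * X ^ 2 * R ^ 2 * k ^ 4 * e2 +
      (-520000) * X ^ 4 * R * k ^ 2 * e4 + (176140625) * X ^ 6 * e6
  · have hp2 : th (k ^ 2) = 2 * k * th k := by rw [pow_two, th_mul]; ring
    have hSx : S = (
      5 * x ^ 4 + 200 * x ^ 3 * X ^ 2 + 54375 * x ^ 2 * X ^ 4 - 9850000 * x * X ^ 6 -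
      293828125 * X ^ 8) * h - 2 * R * (2 * x + 25 * X ^ 2) := by
      rw [hS, hR, hh]
      ring
    rw [th_mul, hp2, hthk, hthh, hthR]
    linear_combination (-8 * R * k ^ 2 + (
      5 * x ^ 4 + 200 * x ^ 3 * X ^ 2 + 54375 * x ^ 2 * X ^ 4 - 9850000 * x * X ^ 6 -
      293828125 * X ^ 8) * k ^ 2 * (y * f)) * hk + y * k ^ 3 * f * hSx

end Vale.Agent.P004H.H204
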